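import Mathlib

/-! Homological lemmas: finite projective dimension and a lower bound. -/

namespace Vale.Agent.P176

open CategoryTheory

variable {A : Type} [Ring A]

/-- projective dimension below n -/
abbrev PD (A : Type) [Ring A] (M : Type) [AddCommGroup M] [Module A M] (n : ℕ) : Prop :=
  HasProjectiveDimensionLT (ModuleCat.of A M) n

/-- finite projective dimension -/
def FP (A : Type) [Ring A] (M : Type) [AddCommGroup M] [Module A M] : Prop :=
  ∃ n, PD A M n

section ses

variable {M₁ M₂ M₃ : Type} [AddCommGroup M₁] [Module A M₁] [AddCommGroup M₂] [Module A M₂]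
  [AddCommGroup M₃] [Module A M₃]

/-- the short complex of two linear maps -/
def sc (f : M₁ →ₗ[A] M₂) (g : M₂ →ₗ[A] M₃) (h : Function.Exact f g) :
    ShortComplex (ModuleCat.{0} A) :=
  ShortComplex.mk (ModuleCat.ofHom f) (ModuleCat.ofHom g) (by
    ext x
    exact h.apply_apply_eq_zero x)

lemma sc_exact (f : M₁ →ₗ[A] M₂) (g : M₂ →ₗ[A] M₃) (h : Function.Exact f g)
    (hf : Function.Injective f) (hg : Function.Surjective g) : (sc f g h).ShortExact :=
  ModuleCat.shortComplex_shortExact _ h hf hg

lemma PD.mono {M : Type} [AddCommGroup M] [Module A M] {n m : ℕ} (h : PD A M n) (hnm : n ≤ m) :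
    PD A M m := hasProjectiveDimensionLT_of_ge _ n m hnm

lemma FP.mid (f : M₁ →ₗ[A] M₂) (g : M₂ →ₗ[A] M₃) (h : Function.Exact f g)
    (hf : Function.Injective f) (hg : Function.Surjective g) (h1 : FP A M₁) (h3 : FP A M₃) :
    FP A M₂ := by
  obtain ⟨a, ha⟩ := h1
  obtain ⟨b, hb⟩ := h3
  exact ⟨max a b, (sc_exact f g h hf hg).hasProjectiveDimensionLT_X₂ _
    (ha.mono (le_max_left _ _)) (hb.mono (le_max_right _ _))⟩

lemma FP.right (f : M₁ →ₗ[A] M₂) (g : M₂ →ₗ[A] M₃) (h : Function.Exact f g)
    (hf : Function.Injective f) (hg : Function.Surjective g) (h1 : FP A M₁) (h2 : FP A M₂) :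
    FP A M₃ := by
  obtain ⟨a, ha⟩ := h1
  obtain ⟨b, hb⟩ := h2
  exact ⟨max a b + 1, (sc_exact f g h hf hg).hasProjectiveDimensionLT_X₃ _
    (ha.mono (le_max_left _ _)) (hb.mono (by omega))⟩

lemma PD.left (f : M₁ →ₗ[A] M₂) (g : M₂ →ₗ[A] M₃) (h : Function.Exact f g)
    (hf : Function.Injective f) (hg : Function.Surjective g) {n : ℕ} (h2 : PD A M₂ n)
    (h3 : PD A M₃ (n + 1)) : PD A M₁ n :=
  (sc_exact f g h hf hg).hasProjectiveDimensionLT_X₁ _ h2 h3

end ses

lemma PD.of_projective (M : Type) [AddCommGroup M] [Module A M] [Module.Projective A M] :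
    PD A M 1 := inferInstance

lemma FP.of_projective (M : Type) [AddCommGroup M] [Module A M] [Module.Projective A M] :
    FP A M := ⟨1, PD.of_projective M⟩

lemma FP.of_subsingleton (M : Type) [AddCommGroup M] [Module A M] [Subsingleton M] :
    FP A M := FP.of_projective M

lemma FP.of_equiv {M N : Type} [AddCommGroup M] [Module A M] [AddCommGroup N] [Module A N]
    (e : M ≃ₗ[A] N) (h : FP A M) : FP A N := by
  obtain ⟨n, hn⟩ := h
  exact ⟨n, hasProjectiveDimensionLT_of_iso e.toModuleIso n⟩

lemma projective_of_PD {M : Type} [AddCommGroup M] [Module A M] (h : PD A M 1) :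
    Module.Projective A M := by
  have : Projective (ModuleCat.of A M) := projective_iff_hasProjectiveDimensionLT_one.mpr h
  exact ModuleCat.projective_of_module_projective (ModuleCat.of A M)

/-- projectivity from a generating family and an idempotent-like element -/
lemma proj_of_gen {ι M : Type} [Finite ι] [AddCommGroup M] [Module A M] (T : (ι → A) →ₗ[A] M)
    (hT : Function.Surjective T) (e : A) (h1 : ∀ x, T (fun p => x p * e) = T x)
    (h2 : ∀ x, T x = 0 → (fun p => x p * e) = 0) : Module.Projective A M := by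
  let E : (ι → A) →ₗ[A] (ι → A) :=
    { toFun := fun x p => x p * e
      map_add' := fun x y => by ext p; simp [add_mul]
      map_smul' := fun a x => by ext p; simp [mul_assoc] }
  have hk : LinearMap.ker T ≤ LinearMap.ker E := fun x hx => h2 x hx
  let s : M →ₗ[A] (ι → A) :=
    ((LinearMap.ker T).liftQ E hk).comp (T.quotKerEquivOfSurjective hT).symm.toLinearMap
  refine Module.Projective.of_split s T ?_
  ext m
  obtain ⟨x, rfl⟩ := hT m
  have : (T.quotKerEquivOfSurjective hT).symm (T x) = Submodule.Quotient.mk x := by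
    rw [LinearEquiv.symm_apply_eq]; rfl
  simp only [s, LinearMap.comp_apply, LinearEquiv.coe_coe, this, Submodule.liftQ_apply,
    LinearMap.id_apply]
  exact h1 x

section lower

variable (I : Set A) (hIl : ∀ r, ∀ a ∈ I, r * a ∈ I) (hIr : ∀ r, ∀ a ∈ I, a * r ∈ I)
  (hII : ∀ a ∈ I, ∀ b ∈ I, a * b = 0)
  (X H Y : ℕ → Type) [∀ k, AddCommGroup (X k)] [∀ k, Module A (X k)]
  [∀ k, AddCommGroup (H k)] [∀ k, Module A (H k)] [∀ k, AddCommGroup (Y k)] [∀ k, Module A (Y k)]
  (i : ∀ k, X k →ₗ[A] H k) (p : ∀ k, H k →ₗ[A] Y (k + 1)) (g : ∀ k, X k →ₗ[A] Y k)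
  (hi : ∀ k, Function.Injective (i k)) (hp : ∀ k, Function.Surjective (p k))
  (hg : ∀ k, Function.Surjective (g k)) (hex : ∀ k, Function.Exact (i k) (p k))
  (hX : ∀ k, ∀ a ∈ I, ∀ x : X k, a • x = 0)
  (hH : ∀ k (x : X k), i k x ∈ Submodule.span A {z : H k | ∃ a ∈ I, ∃ h : H k, z = a • h})

include hIl hIr hII hi hp hg hex hX hH in
lemma lower_aux (n : ℕ) : ∀ (k : ℕ) (M : Type) [AddCommGroup M] [Module A M]
    (π : M →ₗ[A] Y (k + n + 1)), (∀ y, ∃ w, π w = y ∧ ∀ a ∈ I, a • w = 0) → PD A M (n + 1) →
    Subsingleton (Y k) := by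
  induction n with
  | zero =>
    intro k M _ _ π hπ hM
    have := projective_of_PD hM
    obtain ⟨l, hl⟩ := Module.projective_lifting_property (p k) π (hp k)
    have h0 : ∀ a ∈ I, ∀ h : H k, a • h = 0 := by
      intro a ha h
      obtain ⟨w, hw, hw0⟩ := hπ (p k h)
      have h1 : p k (h - l w) = 0 := by
        rw [map_sub, ← hw, ← hl]; simp
      obtain ⟨x, hx⟩ := (hex k _).1 h1
      have h2 : h = l w + i k x := by rw [hx]; abel
      rw [h2, smul_add, ← map_smul, ← map_smul, hw0 a ha, hX k a ha]; simp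
    have h1 : ∀ x : X k, x = 0 := by
      intro x
      apply hi k
      have := hH k x
      have h2 : Submodule.span A {z : H k | ∃ a ∈ I, ∃ h : H k, z = a • h} ≤ ⊥ := by
        rw [Submodule.span_le]
        rintro z ⟨a, ha, h, rfl⟩
        simp [h0 a ha h]
      simpa using h2 this
    refine ⟨fun y y' => ?_⟩
    obtain ⟨x, rfl⟩ := hg k y
    obtain ⟨x', rfl⟩ := hg k y'
    rw [h1 x, h1 x']
  | succ n ih =>
    intro k M _ _ π hπ hM
    let W : Submodule A M :=
      { carrier := {w | ∀ a ∈ I, a • w = 0}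
        add_mem' := fun {x y} hx hy a ha => by rw [smul_add, hx a ha, hy a ha, add_zero]
        zero_mem' := fun a _ => smul_zero a
        smul_mem' := fun r x hx a ha => by rw [smul_smul]; exact hx _ (hIr r a ha) }
    let m := k + n + 1
    let q : (H m →₀ A) →ₗ[A] H m := Finsupp.linearCombination A id
    have hq : Function.Surjective q := Finsupp.linearCombination_surjective A Function.surjective_id
    let s : (M →₀ A) →ₗ[A] M := Finsupp.linearCombination A id
    have hs : Function.Surjective s := Finsupp.linearCombination_surjective A Function.surjective_id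
    have hπW : Function.Surjective (π.comp W.subtype) := by
      intro y
      obtain ⟨w, hw, hw0⟩ := hπ y
      exact ⟨⟨w, hw0⟩, hw⟩
    obtain ⟨γ, hγ⟩ := Module.projective_lifting_property (π.comp W.subtype) ((p m).comp q) hπW
    obtain ⟨l, hl⟩ := Module.projective_lifting_property (p m) (π.comp s) (hp m)
    let tot : ((M →₀ A) × (H m →₀ A)) →ₗ[A] M := s.coprod (W.subtype.comp γ)
    let L : ((M →₀ A) × (H m →₀ A)) →ₗ[A] H m := l.coprod q
    have htot : Function.Surjective tot := by
      intro x
      obtain ⟨z, rfl⟩ := hs x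
      exact ⟨(z, 0), by simp [tot]⟩
    have hL : ∀ z, p m (L z) = π (tot z) := by
      rintro ⟨z, z'⟩
      have h1 := LinearMap.congr_fun hl z
      have h2 := LinearMap.congr_fun hγ z'
      simp only [LinearMap.comp_apply] at h1 h2
      simp only [L, tot, LinearMap.coprod_apply, map_add, LinearMap.comp_apply, h1, h2]
    have hK : PD A (LinearMap.ker tot) (n + 1) :=
      PD.left (LinearMap.ker tot).subtype tot (LinearMap.exact_subtype_ker_map tot)
        (Submodule.injective_subtype _) htot ((PD.of_projective _).mono (by omega)) hM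
    have hr : ∀ z : LinearMap.ker tot, L z ∈ LinearMap.range (i m) := by
      intro z
      have h1 : p m (L z) = 0 := by rw [hL, z.2, map_zero]
      exact (hex m _).1 h1
    let e := LinearEquiv.ofInjective (i m) (hi m)
    let L' : LinearMap.ker tot →ₗ[A] X m :=
      e.symm.toLinearMap.comp ((L.comp (LinearMap.ker tot).subtype).codRestrict _ hr)
    have hL' : ∀ z, i m (L' z) = L z := by
      intro z
      have := e.apply_symm_apply ⟨L z, hr z⟩
      exact congrArg Subtype.val this
    let π' : LinearMap.ker tot →ₗ[A] Y (k + n + 1) := (g m).comp L'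
    refine ih k (LinearMap.ker tot) π' ?_ hK
    intro y
    obtain ⟨x, rfl⟩ := hg m y
    have key : ∀ z ∈ Submodule.span A {z : H m | ∃ a ∈ I, ∃ h : H m, z = a • h},
        ∃ w : LinearMap.ker tot, L w = z ∧ ∀ a ∈ I, a • w = 0 := by
      intro z hz
      induction hz using Submodule.span_induction with
      | mem z hz =>
        obtain ⟨a, ha, h, rfl⟩ := hz
        obtain ⟨u, rfl⟩ := hq h
        refine ⟨⟨(0, a • u), ?_⟩, ?_, ?_⟩
        · have := (γ u).2 a ha
          simp only [tot, LinearMap.mem_ker, LinearMap.coprod_apply, map_zero, zero_add,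
            LinearMap.comp_apply, map_smul]
          exact this
        · simp [L]
        · intro b hb
          apply Subtype.ext
          simp [smul_smul, hII b hb a ha]
      | zero => exact ⟨0, by simp, fun a _ => smul_zero a⟩
      | add x y _ _ hx hy =>
        obtain ⟨w, hw, hw0⟩ := hx
        obtain ⟨w', hw', hw0'⟩ := hy
        exact ⟨w + w', by simp [hw, hw'], fun a ha => by rw [smul_add, hw0 a ha, hw0' a ha, add_zero]⟩
      | smul r x _ hx =>
        obtain ⟨w, hw, hw0⟩ := hx
        exact ⟨r • w, by simp [hw], fun a ha => by rw [smul_smul]; exact hw0 _ (hIr r a ha)⟩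
    obtain ⟨w, hw, hw0⟩ := key _ (hH m x)
    refine ⟨w, ?_, hw0⟩
    have : L' w = x := hi m (by rw [hL', hw])
    change g m (L' w) = g m x
    rw [this]

include hIl hIr hII hi hp hg hex hX hH in
lemma lower (hY : ∀ k, ∀ a ∈ I, ∀ y : Y k, a • y = 0) (k n : ℕ) [Nontrivial (Y k)] :
    ¬ PD A (Y (k + n + 1)) (n + 1) := by
  intro h
  have := lower_aux I hIl hIr hII X H Y i p g hi hp hg hex hX hH n k (Y (k + n + 1))
    LinearMap.id (fun y => ⟨y, rfl, fun a ha => hY _ a ha y⟩) h
  exact not_subsingleton (Y k) this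

end lower

end Vale.Agent.P176
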