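import Vale.Agent.P176.Rows
import Vale.Agent.P176.Hom

/-! The finite dimensional algebra and its graded modules. -/

namespace Vale.Agent.P176

open Finset Matrix

variable {K : Type} [Field K]

/-- row index of the bimodule -/
abbrev L1 := Fin 5 × Fin 2 × Fin 2
/-- row index of the second representation -/
abbrev L2 := Fin 5 ⊕ L1

/-- layer of a row -/
def lay (x : L1) : Fin 6 := ⟨x.1 + x.2.1, by omega⟩

/-- restriction to positive layers -/
def piB (b : Matrix (Fin 6) (Fin 6) (C K)) : Matrix (Fin 5) (Fin 5) (C K) :=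
  b.submatrix Fin.succ Fin.succ

/-- left action on the bimodule -/
noncomputable def thB (b : Matrix (Fin 6) (Fin 6) (C K)) : Matrix L1 L1 (C K) :=
  fun x y => Th K (b (lay x) (lay y)) x.2.1 y.2.1 x.2.2 y.2.2

/-- graded matrices -/
def Gr (b : Matrix (Fin 6) (Fin 6) (C K)) : Prop :=
  ∀ j i : Fin 6, b j i ∈ Cg K (((j : ℕ) : ℤ) - (i : ℕ))

lemma core {b : Matrix (Fin 6) (Fin 6) (C K)} (hb : Gr b) (c : Fin 6 → C K) (t w : Fin 2)
    (hc : ∀ v, Th K (c 0) 1 t v w = 0) (x : L1) :
    ∑ y, thB b x y * Th K (c (lay y)) y.2.1 t y.2.2 w =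
      Th K (∑ i, b (lay x) i * c i) x.2.1 t x.2.2 w := by
  simp only [map_sum, Matrix.sum_apply, Th_mul, Fintype.sum_prod_type, thB]
  rw [Finset.sum_comm]
  conv_rhs => rw [Finset.sum_comm]
  rw [Fin.sum_univ_two, Fin.sum_univ_two]
  congr 1
  · rw [Fin.sum_univ_castSucc (n := 5)]
    have h0 : ∀ v, Th K (b (lay x) (Fin.last 5)) x.2.1 0 x.2.2 v = 0 := by
      intro v
      refine Cg_neg ?_ (Th_deg _ (hb _ _) _ _ _ _)
      simp only [lay, Fin.val_last]
      push_cast
      omega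
    simp only [h0, zero_mul, Finset.sum_const_zero, add_zero]
    rfl
  · rw [Fin.sum_univ_succ (n := 5)]
    simp only [hc, mul_zero, Finset.sum_const_zero, zero_add]
    rfl

lemma Gr.mul {b b' : Matrix (Fin 6) (Fin 6) (C K)} (hb : Gr b) (hb' : Gr b') : Gr (b * b') := by
  intro j i
  rw [Matrix.mul_apply]
  exact Submodule.sum_mem _ fun k _ => Cg_mul' (hb j k) (hb' k i) (by ring)

lemma Gr.row0 {b : Matrix (Fin 6) (Fin 6) (C K)} (hb : Gr b) (i : Fin 5) : b 0 i.succ = 0 :=
  Cg_neg (by simp only [Fin.val_zero, Fin.val_succ]; omega) (hb 0 i.succ)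

lemma piB_mul (b : Matrix (Fin 6) (Fin 6) (C K)) {b' : Matrix (Fin 6) (Fin 6) (C K)}
    (hb' : Gr b') : piB (b * b') = piB b * piB b' := by
  ext j i
  simp only [piB, submatrix_apply, Matrix.mul_apply]
  rw [Fin.sum_univ_succ (n := 5), hb'.row0, mul_zero, zero_add]

lemma thB_mul {b b' : Matrix (Fin 6) (Fin 6) (C K)} (hb : Gr b) (hb' : Gr b') :
    thB (b * b') = thB b * thB b' := by
  ext x z
  rw [Matrix.mul_apply]
  refine (core hb (fun i => b' i (lay z)) z.2.1 z.2.2 (fun v => ?_) x).symm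
  refine Cg_neg ?_ (Th_deg _ (hb' _ _) _ _ _ _)
  simp only [lay]
  push_cast
  omega

lemma thB_add (b b' : Matrix (Fin 6) (Fin 6) (C K)) : thB (b + b') = thB b + thB b' := by
  ext x y; simp [thB]

lemma thB_smul (r : K) (b : Matrix (Fin 6) (Fin 6) (C K)) : thB (r • b) = r • thB b := by
  ext x y; simp [thB]

lemma thB_one : thB (1 : Matrix (Fin 6) (Fin 6) (C K)) = 1 := by
  ext ⟨j, s, v⟩ ⟨i, t, w⟩
  simp only [thB, Matrix.one_apply, lay, Fin.mk.injEq, Prod.mk.injEq]
  by_cases h : (j : ℕ) + s = i + t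
  · rw [if_pos h, map_one]
    by_cases h2 : s = t
    · subst h2
      have : j = i := Fin.ext (by omega)
      simp [this, Matrix.one_apply]
    · simp [h2, Matrix.one_apply]
  · rw [if_neg h, map_zero, if_neg]
    · rfl
    · rintro ⟨rfl, rfl, -⟩; exact h rfl

lemma Gr.one : Gr (1 : Matrix (Fin 6) (Fin 6) (C K)) := by
  intro j i
  rw [Matrix.one_apply]
  split_ifs with h
  · subst h; simpa using one_mem_Cg
  · exact zero_mem _

lemma thB_mem {b : Matrix (Fin 6) (Fin 6) (C K)} (hb : Gr b) (x y : L1) :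
    thB b x y ∈ Cg K (((x.1 : ℕ) : ℤ) - (y.1 : ℕ)) := by
  have := Th_deg _ (hb (lay x) (lay y)) x.2.1 y.2.1 x.2.2 y.2.2
  have e : (((lay x : Fin 6) : ℕ) : ℤ) - ((lay y : Fin 6) : ℕ) + (y.2.1 : ℕ) - (x.2.1 : ℕ) =
      ((x.1 : ℕ) : ℤ) - (y.1 : ℕ) := by
    simp only [lay]; push_cast; ring
  rwa [e] at this

lemma piB_mem {b : Matrix (Fin 6) (Fin 6) (C K)} (hb : Gr b) (x y : Fin 5) :
    piB b x y ∈ Cg K (((x : ℕ) : ℤ) - (y : ℕ)) := by
  have := hb x.succ y.succ
  simp only [Fin.val_succ] at this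
  push_cast at this
  rwa [add_sub_add_right_eq_sub] at this

/-- graded elements of the bimodule -/
def GrU (u : Matrix L1 (Fin 5) (C K)) : Prop :=
  ∀ (x : L1) (i : Fin 5), u x i ∈ Cg K (((x.1 : ℕ) : ℤ) - (i : ℕ))

variable (K) in
/-- the algebra as a subalgebra of a product of matrix algebras -/
noncomputable def Asub : Subalgebra K (Matrix (Fin 6) (Fin 6) (C K) × Matrix L2 L2 (C K)) where
  carrier := {a | Gr a.1 ∧ ∃ u, GrU u ∧ a.2 = fromBlocks (piB a.1) 0 u (thB a.1)}
  mul_mem' := by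
    rintro ⟨b, m⟩ ⟨b', m'⟩ ⟨hb, u, hu, h⟩ ⟨hb', u', hu', h'⟩
    dsimp only at hb hb' h h'
    subst h h'
    refine ⟨hb.mul hb', u * piB b' + thB b * u', ?_, ?_⟩
    · intro x i
      rw [Matrix.add_apply, Matrix.mul_apply, Matrix.mul_apply]
      exact add_mem (Submodule.sum_mem _ fun k _ => Cg_mul' (hu x k) (piB_mem hb' k i) (by ring))
        (Submodule.sum_mem _ fun y _ => Cg_mul' (thB_mem hb x y) (hu' y i) (by ring))
    · simp only [Prod.mk_mul_mk, fromBlocks_multiply, piB_mul b hb', thB_mul hb hb']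
      simp
  add_mem' := by
    rintro ⟨b, m⟩ ⟨b', m'⟩ ⟨hb, u, hu, h⟩ ⟨hb', u', hu', h'⟩
    dsimp only at hb hb' h h'
    subst h h'
    refine ⟨fun j i => add_mem (hb j i) (hb' j i), u + u', fun x i => add_mem (hu x i) (hu' x i), ?_⟩
    simp only [Prod.mk_add_mk, fromBlocks_add, thB_add, add_zero]
    rfl
  algebraMap_mem' := by
    intro r
    rw [Algebra.algebraMap_eq_smul_one]
    refine ⟨fun j i => Submodule.smul_mem _ r (Gr.one j i), 0, fun x i => zero_mem _, ?_⟩
    simp only [Prod.smul_fst, Prod.smul_snd, Prod.fst_one, Prod.snd_one, thB_smul, thB_one]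
    rw [← fromBlocks_one, fromBlocks_smul]
    simp only [smul_zero]
    congr 1
    ext j i
    simp [piB, Matrix.one_apply]

variable (K) in
/-- the algebra -/
def Alg : Type := Asub K

noncomputable instance : Ring (Alg K) := inferInstanceAs (Ring (Asub K))
noncomputable instance : Algebra K (Alg K) := inferInstanceAs (Algebra K (Asub K))

variable (K) in
/-- inclusion -/
noncomputable def valA : Alg K →ₐ[K] (Matrix (Fin 6) (Fin 6) (C K) × Matrix L2 L2 (C K)) :=
  (Asub K).val

instance : Module.Finite K (Alg K) :=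
  Module.Finite.of_injective (valA K).toLinearMap Subtype.val_injective

/-- element of the algebra from its two parts -/
noncomputable def mkA (b : Matrix (Fin 6) (Fin 6) (C K)) (hb : Gr b) (u : Matrix L1 (Fin 5) (C K))
    (hu : GrU u) : Alg K := ⟨(b, fromBlocks (piB b) 0 u (thB b)), hb, u, hu, rfl⟩

lemma exists_mkA (a : Alg K) : ∃ b hb u hu, a = mkA b hb u hu := by
  obtain ⟨hb, u, hu, h⟩ := a.2
  exact ⟨a.1.1, hb, u, hu, Subtype.ext (Prod.ext rfl h)⟩

lemma mkA_mul_eq_zero {b b' : Matrix (Fin 6) (Fin 6) (C K)} {hb : Gr b} {hb' : Gr b'}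
    {u u' : Matrix L1 (Fin 5) (C K)} {hu : GrU u} {hu' : GrU u'} (h1 : b * b' = 0)
    (h2 : u * piB b' + thB b * u' = 0) : mkA b hb u hu * mkA b' hb' u' hu' = 0 := by
  apply Subtype.ext
  change (b * b', fromBlocks (piB b) 0 u (thB b) * fromBlocks (piB b') 0 u' (thB b')) = 0
  simp only [fromBlocks_multiply, ← piB_mul b hb',
    h1, h2, Matrix.mul_zero, Matrix.zero_mul, add_zero, zero_add, ← thB_mul hb hb']
  have e1 : piB (0 : Matrix (Fin 6) (Fin 6) (C K)) = 0 := rfl
  have e2 : thB (0 : Matrix (Fin 6) (Fin 6) (C K)) = 0 := by ext; simp [thB]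
  rw [e1, e2, fromBlocks_zero]; rfl

variable (K) in
/-- graded matrix representation -/
structure GRep (Λ : Type) [Fintype Λ] [DecidableEq Λ] where
  /-- the homomorphism -/
  ρ : Alg K →ₐ[K] Matrix Λ Λ (C K)
  /-- degrees -/
  d : Λ → ℤ
  h : ∀ a x y, ρ a x y ∈ Cg K (d x - d y)

variable (K) in
/-- first representation -/
noncomputable def R1 : GRep K (Fin 6) where
  ρ := (AlgHom.fst K _ _).comp (valA K)
  d := fun j => (j : ℕ)
  h := fun a => a.2.1

/-- degrees of the second representation -/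
def d2 : L2 → ℤ := Sum.elim (fun i => (i : ℕ) + 1) (fun x => (x.1 : ℕ) + 1)

variable (K) in
/-- second representation -/
noncomputable def R2 : GRep K L2 where
  ρ := (AlgHom.snd K _ _).comp (valA K)
  d := d2
  h := by
    intro a x y
    obtain ⟨b, hb, u, hu, rfl⟩ := exists_mkA a
    rcases x with x | x <;> rcases y with y | y <;>
      simp only [d2, Sum.elim_inl, Sum.elim_inr, add_sub_add_right_eq_sub]
    · exact piB_mem hb x y
    · exact zero_mem _
    · exact hu x y
    · exact thB_mem hb x y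

lemma R1_mk (b hb u hu) : (R1 K).ρ (mkA b hb u hu) = b := rfl
lemma R2_mk (b hb u hu) : (R2 K).ρ (mkA b hb u hu) = fromBlocks (piB b) 0 u (thB b) := rfl

section col

variable {Λ : Type} [Fintype Λ] [DecidableEq Λ] (R : GRep K Λ)

/-- the module of matrices -/
def Col (_ : GRep K Λ) (ι : Type) : Type := Matrix Λ ι (C K)

variable (ι κ : Type)

noncomputable instance : AddCommGroup (Col R ι) := inferInstanceAs (AddCommGroup (Matrix Λ ι (C K)))
noncomputable instance : Module K (Col R ι) := inferInstanceAs (Module K (Matrix Λ ι (C K)))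

/-- underlying matrix -/
def Col.m {R : GRep K Λ} {ι : Type} (m : Col R ι) : Matrix Λ ι (C K) := m
/-- element from a matrix -/
def Col.of (R : GRep K Λ) {ι : Type} (m : Matrix Λ ι (C K)) : Col R ι := m

noncomputable instance : Module (Alg K) (Col R ι) where
  smul a m := Col.of R (R.ρ a * m.m)
  one_smul m := by change R.ρ 1 * m.m = m.m; simp
  mul_smul a b m := by change R.ρ (a * b) * m.m = R.ρ a * (R.ρ b * m.m); simp [Matrix.mul_assoc]
  smul_zero a := Matrix.mul_zero _
  smul_add a m n := Matrix.mul_add _ _ _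
  add_smul a b m := by change R.ρ (a + b) * m.m = R.ρ a * m.m + R.ρ b * m.m; simp [Matrix.add_mul]
  zero_smul m := by change R.ρ 0 * m.m = 0; simp

variable {R ι κ}

lemma Col.smul_m (a : Alg K) (m : Col R ι) : (a • m).m = R.ρ a * m.m := rfl
lemma Col.ksmul_m (a : K) (m : Col R ι) : (a • m).m = a • m.m := rfl
lemma Col.add_m (m n : Col R ι) : (m + n).m = m.m + n.m := rfl
lemma Col.sub_m (m n : Col R ι) : (m - n).m = m.m - n.m := rfl
lemma Col.zero_m : (0 : Col R ι).m = 0 := rfl
lemma Col.of_m (m : Matrix Λ ι (C K)) : (Col.of R m).m = m := rfl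
lemma Col.ext {m n : Col R ι} (h : m.m = n.m) : m = n := h

instance : IsScalarTower K (Alg K) (Col R ι) where
  smul_assoc r a m := by
    apply Col.ext
    simp only [Col.smul_m, Col.ksmul_m, map_smul, Matrix.smul_mul]

instance [Finite ι] : Module.Finite K (Col R ι) :=
  inferInstanceAs (Module.Finite K (Matrix Λ ι (C K)))

instance [Finite ι] (S : Submodule (Alg K) (Col R ι)) : Module.Finite (Alg K) S := by
  have : Module.Finite K S :=
    Module.Finite.of_injective (S.subtype.restrictScalars K) Subtype.val_injective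
  exact Module.Finite.of_restrictScalars_finite K (Alg K) S

variable (R) in
/-- right multiplication -/
noncomputable def rm [Fintype ι] (T : Matrix ι κ (C K)) : Col R ι →ₗ[Alg K] Col R κ where
  toFun m := Col.of R (m.m * T)
  map_add' m n := Matrix.add_mul _ _ _
  map_smul' a m := Matrix.mul_assoc _ _ _

lemma rm_m [Fintype ι] (T : Matrix ι κ (C K)) (m : Col R ι) : (rm R T m).m = m.m * T := rfl

variable (R ι) in
/-- graded part -/
noncomputable def Q (e : ℤ) : Submodule (Alg K) (Col R ι) where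
  carrier := {m | ∀ x p, m.m x p ∈ Cg K (R.d x - e)}
  add_mem' := fun hm hn x p => add_mem (hm x p) (hn x p)
  zero_mem' := fun _ _ => zero_mem _
  smul_mem' := fun a m hm x p => by
    rw [Col.smul_m, Matrix.mul_apply]
    exact Submodule.sum_mem _ fun y _ => Cg_mul' (R.h a x y) (hm y p) (by ring)

variable [Fintype ι] [DecidableEq ι]

variable (R) in
/-- cycles -/
noncomputable def Z (F : Fin 2 → Fin 2 → Matrix ι ι K) (e : ℤ) : Submodule (Alg K) (Col R ι) :=
  Q R ι e ⊓ LinearMap.ker (rm R (dl F))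

lemma mem_Z {F : Fin 2 → Fin 2 → Matrix ι ι K} {e : ℤ} {m : Col R ι} :
    m ∈ Z R F e ↔ (∀ x p, m.m x p ∈ Cg K (R.d x - e)) ∧ ∀ x, m.m x ᵥ* dl F = 0 := by
  refine and_congr Iff.rfl ⟨fun h x => ?_, fun h => ?_⟩
  · exact congrFun (congrArg Col.m h) x
  · apply Col.ext
    ext x p
    exact congrFun (h x) p

lemma Z_exact {F : Fin 2 → Fin 2 → Matrix ι ι K} {e e' : ℤ} (he : e' = e + 1) {m : Col R ι}
    (hm : m ∈ Z R F e) : ∃ z ∈ Q R ι e', rm R (dl F) z = m := by
  rw [mem_Z] at hm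
  choose z hz hz' using fun x => exact_row F (hm.1 x) (hm.2 x)
  refine ⟨Col.of R z, fun x p => ?_, ?_⟩
  · have := hz x p
    rwa [show R.d x - e - 1 = R.d x - e' by omega] at this
  · apply Col.ext
    ext x p
    exact congrFun (hz' x) p

lemma rm_dl_mem {F : Fin 2 → Fin 2 → Matrix ι ι K} (hF : GLrel F) {e e' : ℤ} (he : e' = e + 1)
    {z : Col R ι} (hz : z ∈ Q R ι e') : rm R (dl F) z ∈ Z R F e := by
  refine ⟨fun x p => ?_, ?_⟩
  · have := vecMul_dl_mem F (hz x) p
    rwa [show R.d x - e' + 1 = R.d x - e by omega] at this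
  · apply Col.ext
    simp only [rm_m, Matrix.mul_assoc, dl_sq hF, Matrix.mul_zero]
    rfl

lemma FP_step {F : Fin 2 → Fin 2 → Matrix ι ι K} (hF : GLrel F) {e e' : ℤ} (he : e' = e + 1)
    (h1 : FP (Alg K) (Z R F e')) (h2 : FP (Alg K) (Q R ι e')) : FP (Alg K) (Z R F e) := by
  refine FP.right (Submodule.inclusion (inf_le_left : Z R F e' ≤ Q R ι e'))
    (((rm R (dl F)).comp (Q R ι e').subtype).codRestrict (Z R F e)
      (fun z => rm_dl_mem hF he z.2)) ?_ (Submodule.inclusion_injective _) ?_ h1 h2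
  · intro z
    constructor
    · intro h
      exact ⟨⟨z.1, z.2, congrArg Subtype.val h⟩, rfl⟩
    · rintro ⟨y, rfl⟩
      exact Subtype.ext y.2.2
  · intro m
    obtain ⟨z, hz, h⟩ := Z_exact he m.2
    exact ⟨⟨z, hz⟩, Subtype.ext h⟩

lemma Z_zero {F : Fin 2 → Fin 2 → Matrix ι ι K} {e : ℤ} {m : Col R ι} (hm : m ∈ Z R F e)
    {x : Λ} (hx : R.d x ≤ e) : m.m x = 0 := by
  rw [mem_Z] at hm
  obtain ⟨z, hz, h⟩ := exact_row F (hm.1 x) (hm.2 x)
  have : z = 0 := funext fun p => Cg_neg (by omega) (hz p)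
  rw [← h, this, zero_vecMul]

variable (R ι) in
/-- the map from the free module picking a column -/
noncomputable def Tc (y : Λ) : (ι → Alg K) →ₗ[Alg K] Q R ι (R.d y) where
  toFun a := ⟨Col.of R (fun x p => R.ρ (a p) x y), fun x p => R.h _ x y⟩
  map_add' a b := by
    apply Subtype.ext; apply Col.ext
    ext x p
    change R.ρ (a p + b p) x y = R.ρ (a p) x y + R.ρ (b p) x y
    simp
  map_smul' r a := by
    apply Subtype.ext; apply Col.ext
    ext x p
    change R.ρ (r * a p) x y = ∑ j, R.ρ r x j * R.ρ (a p) j y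
    simp [Matrix.mul_apply]

omit [DecidableEq ι] in
lemma Q_proj (y : Λ) (e : Alg K) (h1 : ∀ x, R.ρ e x y = if x = y then 1 else 0)
    (h2 : ∀ a : Alg K, (∀ x, R.ρ a x y = 0) → a * e = 0)
    (h3 : ∀ c : Λ → C K, (∀ x, c x ∈ Cg K (R.d x - R.d y)) → ∃ a, ∀ x, R.ρ a x y = c x) :
    Module.Projective (Alg K) (Q R ι (R.d y)) := by
  refine proj_of_gen (Tc R ι y) ?_ e ?_ ?_
  · intro m
    choose a ha using fun p => h3 (fun x => m.1.m x p) (fun x => m.2 x p)
    refine ⟨a, Subtype.ext (Col.ext ?_)⟩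
    ext x p
    exact ha p x
  · intro a
    apply Subtype.ext; apply Col.ext
    ext x p
    change R.ρ (a p * e) x y = R.ρ (a p) x y
    simp [Matrix.mul_apply, h1]
  · intro a ha
    ext1 p
    exact h2 _ fun x => congrFun (congrFun (congrArg (fun m => m.1.m) ha) x) p

end col

/-- a single column -/
noncomputable def colM {Λ Γ : Type} [DecidableEq Γ] (y : Γ) (c : Λ → C K) : Matrix Λ Γ (C K) :=
  fun x z => if z = y then c x else 0

lemma Gr_colM (y : Fin 6) (c : Fin 6 → C K) (hc : ∀ x : Fin 6, c x ∈ Cg K (((x : ℕ) : ℤ) - (y : ℕ))) :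
    Gr (colM y c) := by
  intro j i
  unfold colM
  split_ifs with h
  · subst h; exact hc j
  · exact zero_mem _

lemma GrU_colM (y : Fin 5) (c : L1 → C K) (hc : ∀ x : L1, c x ∈ Cg K (((x.1 : ℕ) : ℤ) - (y : ℕ))) :
    GrU (colM y c) := by
  intro j i
  unfold colM
  split_ifs with h
  · subst h; exact hc j
  · exact zero_mem _

lemma GrU_zero : GrU (0 : Matrix L1 (Fin 5) (C K)) := fun _ _ => zero_mem _
lemma Gr_zero : Gr (0 : Matrix (Fin 6) (Fin 6) (C K)) := fun _ _ => zero_mem _

/-- idempotent -/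
noncomputable def eA (y : Fin 6) : Alg K :=
  mkA (colM y (fun x => if x = y then 1 else 0)) (Gr_colM _ _ (fun x => by
    split_ifs with h
    · subst h; simpa using one_mem_Cg
    · exact zero_mem _)) 0 GrU_zero

variable {ι : Type} [Fintype ι]

lemma Q1_proj : Module.Projective (Alg K) (Q (R1 K) ι 0) := by
  refine Q_proj (R := R1 K) 0 (eA 0) (fun x => by simp [eA, R1_mk, colM]) ?_ ?_
  · intro a ha
    obtain ⟨b, hb, u, hu, rfl⟩ := exists_mkA a
    apply mkA_mul_eq_zero
    · ext j i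
      have := ha j
      rw [R1_mk] at this
      simp [Matrix.mul_apply, colM, this]
    · ext x i
      simp [Matrix.mul_apply, colM, piB, Fin.succ_ne_zero]
  · intro c hc
    exact ⟨mkA (colM 0 c) (Gr_colM _ _ hc) 0 GrU_zero, fun x => by simp [R1_mk, colM]⟩

lemma Q2_proj (r : Fin 5) : Module.Projective (Alg K) (Q (R2 K) ι ((r : ℕ) + 1)) := by
  refine Q_proj (R := R2 K) (Sum.inl r) (eA r.succ) ?_ ?_ ?_
  · rintro (x | x) <;> simp [eA, R2_mk, colM, piB]
  · intro a ha
    obtain ⟨b, hb, u, hu, rfl⟩ := exists_mkA a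
    apply mkA_mul_eq_zero
    · ext j i
      have : b j r.succ = 0 := by
        refine Fin.cases (hb.row0 r) (fun j => ?_) j
        simpa [R2_mk, piB] using ha (Sum.inl j)
      simp [Matrix.mul_apply, colM, this]
    · ext x i
      have : u x r = 0 := by simpa [R2_mk] using ha (Sum.inr x)
      simp [Matrix.mul_apply, colM, piB, this]
  · intro c hc
    refine ⟨mkA (colM r.succ (Fin.cases 0 (fun i => c (Sum.inl i)))) (Gr_colM _ _ ?_)
      (colM r (fun x => c (Sum.inr x))) (GrU_colM _ _ ?_), ?_⟩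
    · intro x
      refine Fin.cases (zero_mem _) (fun i => ?_) x
      have := hc (Sum.inl i)
      simpa [R2, d2] using this
    · intro x
      have := hc (Sum.inr x)
      simpa [R2, d2] using this
    · rintro (x | x) <;> simp [R2_mk, colM, piB]

lemma FP_H [DecidableEq ι] {F : Fin 2 → Fin 2 → Matrix ι ι K} (hF : GLrel F) :
    FP (Alg K) (Z (R2 K) F 0) := by
  have h5 : FP (Alg K) (Z (R2 K) F 5) := by
    have : Subsingleton (Z (R2 K) F 5) := by
      refine ⟨fun m n => ?_⟩
      have h : ∀ m : Z (R2 K) F 5, m = 0 := by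
        intro m
        apply Subtype.ext; apply Col.ext
        ext1 x p
        refine congrFun (Z_zero m.2 ?_) p
        rcases x with x | x <;> simp only [R2, d2, Sum.elim_inl, Sum.elim_inr] <;> omega
      rw [h m, h n]
    exact FP.of_subsingleton _
  have hq : ∀ r : Fin 5, FP (Alg K) (Q (R2 K) ι ((r : ℕ) + 1)) := fun r =>
    have := Q2_proj (K := K) (ι := ι) r
    FP.of_projective _
  have h4 : FP (Alg K) (Z (R2 K) F 4) := FP_step hF (by norm_num) h5 (hq 4)
  have h3 : FP (Alg K) (Z (R2 K) F 3) := FP_step hF (by norm_num) h4 (hq 3)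
  have h2 : FP (Alg K) (Z (R2 K) F 2) := FP_step hF (by norm_num) h3 (hq 2)
  have h1 : FP (Alg K) (Z (R2 K) F 1) := FP_step hF (by norm_num) h2 (hq 1)
  exact FP_step hF (by norm_num) h1 (hq 0)

end Vale.Agent.P176
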