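import Mathlib

/-! The Koszul dual algebra C of homogenized gl2 and its grading. -/

namespace Vale.Agent.P176

open Finset

/-- generators -/
abbrev Gen := Option (Fin 2 × Fin 2)

variable (K : Type) [Field K]

/-- defining relations -/
inductive Rel : FreeAlgebra K Gen → FreeAlgebra K Gen → Prop
  | anti (i j k l : Fin 2) : Rel
      (FreeAlgebra.ι K (some (i, j)) * FreeAlgebra.ι K (some (k, l)) +
        FreeAlgebra.ι K (some (k, l)) * FreeAlgebra.ι K (some (i, j))) 0
  | sq (i j : Fin 2) : Rel (FreeAlgebra.ι K (some (i, j)) * FreeAlgebra.ι K (some (i, j))) 0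
  | mc (i l : Fin 2) : Rel
      (FreeAlgebra.ι K none * FreeAlgebra.ι K (some (i, l)) +
        FreeAlgebra.ι K (some (i, l)) * FreeAlgebra.ι K none)
      (∑ j, FreeAlgebra.ι K (some (i, j)) * FreeAlgebra.ι K (some (j, l)))
  | tt : Rel (FreeAlgebra.ι K none * FreeAlgebra.ι K none) 0

/-- the algebra C -/
def C : Type := RingQuot (Rel K)

noncomputable instance : Ring (C K) := inferInstanceAs (Ring (RingQuot (Rel K)))
noncomputable instance : Algebra K (C K) := inferInstanceAs (Algebra K (RingQuot (Rel K)))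

/-- quotient map -/
noncomputable def mkC : FreeAlgebra K Gen →ₐ[K] C K := RingQuot.mkAlgHom K (Rel K)

/-- generator xi -/
noncomputable def xi (i j : Fin 2) : C K := mkC K (FreeAlgebra.ι K (some (i, j)))

/-- generator tau -/
noncomputable def tau : C K := mkC K (FreeAlgebra.ι K none)

/-- the relations in a ring -/
structure Rels {R : Type} [Ring R] (x : Fin 2 → Fin 2 → R) (t : R) : Prop where
  anti : ∀ i j k l, x i j * x k l + x k l * x i j = 0
  sq : ∀ i j, x i j * x i j = 0
  mc : ∀ i l, t * x i l + x i l * t = ∑ j, x i j * x j l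
  tt : t * t = 0

lemma mkC_rel {a b : FreeAlgebra K Gen} (h : Rel K a b) : mkC K a = mkC K b :=
  RingQuot.mkAlgHom_rel K h

lemma relsC : Rels (xi K) (tau K) where
  anti i j k l := by
    have := mkC_rel K (Rel.anti (K := K) i j k l)
    simpa [xi] using this
  sq i j := by
    have := mkC_rel K (Rel.sq (K := K) i j)
    simpa [xi] using this
  mc i l := by
    have := mkC_rel K (Rel.mc (K := K) i l)
    simpa [xi, tau] using this
  tt := by
    have := mkC_rel K (Rel.tt (K := K))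
    simpa [tau] using this

variable {K}

/-- universal property -/
noncomputable def liftC {R : Type} [Ring R] [Algebra K R] {x : Fin 2 → Fin 2 → R} {t : R}
    (h : Rels x t) : C K →ₐ[K] R :=
  RingQuot.liftAlgHom K ⟨FreeAlgebra.lift K (fun g : Gen => g.elim t (fun a => x a.1 a.2)), by
    intro a b hab
    cases hab with
    | anti i j k l => simpa using h.anti i j k l
    | sq i j => simpa using h.sq i j
    | mc i l => simpa using h.mc i l
    | tt => simpa using h.tt⟩

lemma liftC_xi {R : Type} [Ring R] [Algebra K R] {x : Fin 2 → Fin 2 → R} {t : R}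
    (h : Rels x t) (i j : Fin 2) : liftC (K := K) h (xi K i j) = x i j := by
  unfold liftC xi mkC
  erw [RingQuot.liftAlgHom_mkAlgHom_apply]
  simp

lemma liftC_tau {R : Type} [Ring R] [Algebra K R] {x : Fin 2 → Fin 2 → R} {t : R}
    (h : Rels x t) : liftC (K := K) h (tau K) = t := by
  unfold liftC tau mkC
  erw [RingQuot.liftAlgHom_mkAlgHom_apply]
  simp

instance : Nontrivial (C K) :=
  (liftC (K := K) (R := K) (x := fun _ _ => 0) (t := 0) ⟨by simp, by simp, by simp, by simp⟩
    ).toRingHom.domain_nontrivial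

lemma C_induction {P : C K → Prop} (h1 : P 1) (hx : ∀ i j y, P y → P (xi K i j * y))
    (ht : ∀ y, P y → P (tau K * y)) (hadd : ∀ y z, P y → P z → P (y + z))
    (hsmul : ∀ (r : K) y, P y → P (r • y)) (y : C K) : P y := by
  have key : ∀ a : FreeAlgebra K Gen, ∀ y, P y → P (mkC K a * y) := by
    intro a
    induction a using FreeAlgebra.induction with
    | grade0 r => intro y hy; rw [AlgHom.commutes, ← Algebra.smul_def]; exact hsmul r y hy
    | grade1 g =>
      intro y hy
      rcases g with _ | ⟨i, j⟩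
      · exact ht y hy
      · exact hx i j y hy
    | mul a b ha hb => intro y hy; rw [map_mul, mul_assoc]; exact ha _ (hb y hy)
    | add a b ha hb => intro y hy; rw [map_add, add_mul]; exact hadd _ _ (ha y hy) (hb y hy)
  obtain ⟨a, rfl⟩ := RingQuot.mkAlgHom_surjective K (Rel K) y
  have := key a 1 h1
  rw [mul_one] at this
  exact this

/-- triangular extension of the relations -/
lemma Rels.tri {R : Type} [Ring R] {x e : Fin 2 → Fin 2 → R} {t : R} (h : Rels x t)
    (he : ∀ i j k l, e i j * x k l = x k l * e i j)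
    (het : ∀ i l, e i l * t - t * e i l = ∑ j, (e i j * x j l - x i j * e j l)) :
    Rels (fun i j => !![x i j, 0; e i j, -x i j]) !![t, 0; 1, -t] where
  anti i j k l := by
    have h1 := h.anti i j k l
    have h2 := he i j k l
    have h3 := he k l i j
    ext a b
    fin_cases a <;> fin_cases b <;> simp [Matrix.mul_apply, Fin.sum_univ_two, h1, h2, h3]
  sq i j := by
    have h1 := h.sq i j
    have h2 := he i j i j
    ext a b
    fin_cases a <;> fin_cases b <;> simp [Matrix.mul_apply, Fin.sum_univ_two, h1, h2]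
  mc i l := by
    have h1 := h.mc i l
    have h2 := het i l
    rw [Fin.sum_univ_two] at h1 h2
    ext a b
    fin_cases a <;> fin_cases b <;> simp [Matrix.mul_apply, Fin.sum_univ_two, h1]
    linear_combination (norm := noncomm_ring) h2
  tt := by
    have h1 := h.tt
    ext a b
    fin_cases a <;> fin_cases b <;> simp [Matrix.mul_apply, Fin.sum_univ_two, h1]

variable (K)

/-- span of the generators -/
noncomputable def Wg : Submodule K (C K) :=
  Submodule.span K ({tau K} ∪ Set.range (fun a : Fin 2 × Fin 2 => xi K a.1 a.2))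

/-- degree n part -/
noncomputable def Cg (n : ℤ) : Submodule K (C K) := if n < 0 then ⊥ else Wg K ^ n.toNat

variable {K}

lemma Cg_neg {n : ℤ} (h : n < 0) {y : C K} (hy : y ∈ Cg K n) : y = 0 := by
  simpa [Cg, h] using hy

lemma Cg_nat (n : ℕ) : Cg K n = Wg K ^ n := by
  have : ¬ ((n : ℤ) < 0) := by omega
  simp [Cg, this]

lemma Cg_mul {m n : ℤ} {x y : C K} (hx : x ∈ Cg K m) (hy : y ∈ Cg K n) : x * y ∈ Cg K (m + n) := by
  by_cases hm : m < 0
  · rw [Cg_neg hm hx, zero_mul]; exact zero_mem _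
  by_cases hn : n < 0
  · rw [Cg_neg hn hy, mul_zero]; exact zero_mem _
  obtain ⟨a, rfl⟩ := Int.eq_ofNat_of_zero_le (not_lt.1 hm)
  obtain ⟨b, rfl⟩ := Int.eq_ofNat_of_zero_le (not_lt.1 hn)
  rw [← Nat.cast_add, Cg_nat, pow_add]
  rw [Cg_nat] at hx hy
  exact Submodule.mul_mem_mul hx hy

lemma Cg_mul' {m n k : ℤ} {x y : C K} (hx : x ∈ Cg K m) (hy : y ∈ Cg K n) (h : m + n = k) :
    x * y ∈ Cg K k := h ▸ Cg_mul hx hy

lemma one_mem_Cg : (1 : C K) ∈ Cg K 0 := by
  have := Cg_nat (K := K) 0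
  simp only [Nat.cast_zero, pow_zero] at this
  rw [this]
  exact Submodule.one_le.1 le_rfl

lemma xi_mem (i j : Fin 2) : xi K i j ∈ Cg K 1 := by
  have := Cg_nat (K := K) 1
  simp only [Nat.cast_one, pow_one] at this
  rw [this]
  exact Submodule.subset_span (Or.inr ⟨(i, j), rfl⟩)

lemma tau_mem : tau K ∈ Cg K 1 := by
  have := Cg_nat (K := K) 1
  simp only [Nat.cast_one, pow_one] at this
  rw [this]
  exact Submodule.subset_span (Or.inl rfl)

lemma Cg_zero {y : C K} (hy : y ∈ Cg K 0) : ∃ r : K, y = r • 1 := by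
  have := Cg_nat (K := K) 0
  simp only [Nat.cast_zero, pow_zero] at this
  rw [this, Submodule.mem_one] at hy
  obtain ⟨r, rfl⟩ := hy
  exact ⟨r, Algebra.algebraMap_eq_smul_one r⟩

lemma Cg_succ_induction {n : ℕ} {P : C K → Prop}
    (hx : ∀ i j, ∀ z ∈ Cg K n, P (xi K i j * z)) (ht : ∀ z ∈ Cg K n, P (tau K * z))
    (h0 : P 0) (hadd : ∀ y z, P y → P z → P (y + z)) (hsmul : ∀ (r : K) y, P y → P (r • y))
    {y : C K} (hy : y ∈ Cg K ((n : ℤ) + 1)) : P y := by
  have h1 : ((n : ℤ) + 1) = ((n + 1 : ℕ) : ℤ) := by push_cast; rfl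
  rw [h1, Cg_nat, pow_succ'] at hy
  refine Submodule.mul_induction_on hy ?_ hadd
  intro m hm z hz
  rw [← Cg_nat] at hz
  induction hm using Submodule.span_induction with
  | mem m hm =>
    rcases hm with rfl | ⟨a, rfl⟩
    · exact ht z hz
    · exact hx _ _ z hz
  | zero => simpa using h0
  | add a b _ _ ha hb => rw [add_mul]; exact hadd _ _ ha hb
  | smul r a _ ha => rw [smul_mul_assoc]; exact hsmul _ _ ha

/-- graded induction: a property of pairs (degree, element) -/
lemma Cg_induction {P : ℤ → C K → Prop} (h1 : P 0 1)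
    (hx : ∀ n i j, ∀ z ∈ Cg K n, P n z → P (n + 1) (xi K i j * z))
    (ht : ∀ n, ∀ z ∈ Cg K n, P n z → P (n + 1) (tau K * z))
    (h0 : ∀ n, P n 0) (hadd : ∀ n y z, P n y → P n z → P n (y + z))
    (hsmul : ∀ n (r : K) y, P n y → P n (r • y)) (n : ℤ) {y : C K} (hy : y ∈ Cg K n) : P n y := by
  by_cases hn : n < 0
  · rw [Cg_neg hn hy]; exact h0 n
  obtain ⟨a, rfl⟩ := Int.eq_ofNat_of_zero_le (not_lt.1 hn)
  clear hn
  induction a generalizing y with
  | zero =>
    obtain ⟨r, rfl⟩ := Cg_zero hy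
    exact hsmul _ _ _ h1
  | succ a ih =>
    push_cast at hy ⊢
    exact Cg_succ_induction (fun i j z hz => hx _ i j z hz (ih hz))
      (fun z hz => ht _ z hz (ih hz)) (h0 _) (hadd _) (hsmul _) hy

/-- product of a list of xi -/
noncomputable def pr (l : List (Fin 2 × Fin 2)) : C K := (l.map (fun a => xi K a.1 a.2)).prod

lemma pr_cons (a : Fin 2 × Fin 2) (l : List (Fin 2 × Fin 2)) :
    pr (K := K) (a :: l) = xi K a.1 a.2 * pr l := by simp [pr]

lemma xi_pr (a : Fin 2 × Fin 2) (l : List (Fin 2 × Fin 2)) (h : a ∈ l) :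
    xi K a.1 a.2 * pr l = 0 := by
  induction l with
  | nil => simp at h
  | cons b l ih =>
    rw [pr_cons, ← mul_assoc]
    rcases List.mem_cons.1 h with rfl | h
    · rw [(relsC K).sq, zero_mul]
    · rw [eq_neg_of_add_eq_zero_left ((relsC K).anti a.1 a.2 b.1 b.2), neg_mul, mul_assoc, ih h]
      simp

lemma pr_eq_zero (l : List (Fin 2 × Fin 2)) (h : ¬ l.Nodup) : pr (K := K) l = 0 := by
  induction l with
  | nil => simp at h
  | cons b l ih =>
    rw [pr_cons]
    by_cases hb : b ∈ l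
    · exact xi_pr b l hb
    · rw [ih (fun hl => h (List.nodup_cons.2 ⟨hb, hl⟩)), mul_zero]

variable (K) in
/-- exterior part -/
noncomputable def Lx (n : ℕ) : Submodule K (C K) :=
  Submodule.span K {y | ∃ l : List (Fin 2 × Fin 2), l.length = n ∧ y = pr l}

lemma Lx_big {n : ℕ} (hn : 5 ≤ n) {y : C K} (hy : y ∈ Lx K n) : y = 0 := by
  have : Lx K n ≤ ⊥ := by
    rw [Lx, Submodule.span_le]
    rintro y ⟨l, hl, rfl⟩
    have : ¬ l.Nodup := fun h => by
      have := h.length_le_card
      simp at this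
      omega
    simp [pr_eq_zero l this]
  simpa using this hy

lemma xi_Lx {n : ℕ} (i j : Fin 2) {y : C K} (hy : y ∈ Lx K n) : xi K i j * y ∈ Lx K (n + 1) := by
  induction hy using Submodule.span_induction with
  | mem y hy =>
    obtain ⟨l, hl, rfl⟩ := hy
    exact Submodule.subset_span ⟨(i, j) :: l, by simp [hl], (pr_cons (i, j) l).symm⟩
  | zero => simp
  | add a b _ _ ha hb => rw [mul_add]; exact add_mem ha hb
  | smul r a _ ha => rw [mul_smul_comm]; exact Submodule.smul_mem _ _ ha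

lemma tau_Lx {n : ℕ} {y : C K} (hy : y ∈ Lx K n) :
    ∃ p ∈ Lx K (n + 1), ∃ q ∈ Lx K n, tau K * y = p + q * tau K := by
  induction hy using Submodule.span_induction with
  | mem y hy =>
    obtain ⟨l, rfl, rfl⟩ := hy
    induction l with
    | nil => exact ⟨0, zero_mem _, 1, Submodule.subset_span ⟨[], rfl, by simp [pr]⟩, by simp [pr]⟩
    | cons a l ih =>
      obtain ⟨p, hp, q, hq, h⟩ := ih
      have hl : pr l ∈ Lx K l.length := Submodule.subset_span ⟨l, rfl, rfl⟩
      refine ⟨(∑ j, xi K a.1 j * (xi K j a.2 * pr l)) - xi K a.1 a.2 * p,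
        sub_mem (Submodule.sum_mem _ fun j _ => xi_Lx _ _ (xi_Lx _ _ hl)) (xi_Lx _ _ hp),
        -(xi K a.1 a.2 * q), neg_mem (xi_Lx _ _ hq), ?_⟩
      have h2 := (relsC K).mc a.1 a.2
      rw [Fin.sum_univ_two] at h2 ⊢
      rw [pr_cons]
      linear_combination (norm := noncomm_ring) h2 * pr l - xi K a.1 a.2 * h
  | zero => exact ⟨0, zero_mem _, 0, zero_mem _, by simp⟩
  | add a b _ _ ha hb =>
    obtain ⟨p, hp, q, hq, h⟩ := ha
    obtain ⟨p', hp', q', hq', h'⟩ := hb
    exact ⟨p + p', add_mem hp hp', q + q', add_mem hq hq', by rw [mul_add, h, h', add_mul]; abel⟩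
  | smul r a _ ha =>
    obtain ⟨p, hp, q, hq, h⟩ := ha
    exact ⟨r • p, Submodule.smul_mem _ _ hp, r • q, Submodule.smul_mem _ _ hq, by
      rw [mul_smul_comm, h, smul_add, smul_mul_assoc]⟩

lemma Cg_Lx (n : ℕ) {y : C K} (hy : y ∈ Cg K ((n : ℤ) + 1)) :
    ∃ p ∈ Lx K (n + 1), ∃ q ∈ Lx K n, y = p + q * tau K := by
  have hadd : ∀ n (a b : C K), (∃ p ∈ Lx K (n + 1), ∃ q ∈ Lx K n, a = p + q * tau K) →
      (∃ p ∈ Lx K (n + 1), ∃ q ∈ Lx K n, b = p + q * tau K) →
      (∃ p ∈ Lx K (n + 1), ∃ q ∈ Lx K n, a + b = p + q * tau K) := by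
    rintro n a b ⟨p, hp, q, hq, h⟩ ⟨p', hp', q', hq', h'⟩
    exact ⟨p + p', add_mem hp hp', q + q', add_mem hq hq', by rw [h, h', add_mul]; abel⟩
  have hsmul : ∀ n (r : K) (a : C K), (∃ p ∈ Lx K (n + 1), ∃ q ∈ Lx K n, a = p + q * tau K) →
      (∃ p ∈ Lx K (n + 1), ∃ q ∈ Lx K n, r • a = p + q * tau K) := by
    rintro n r a ⟨p, hp, q, hq, h⟩
    exact ⟨r • p, Submodule.smul_mem _ _ hp, r • q, Submodule.smul_mem _ _ hq, by
      rw [h, smul_add, smul_mul_assoc]⟩
  have h1 : (1 : C K) ∈ Lx K 0 := Submodule.subset_span ⟨[], rfl, by simp [pr]⟩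
  induction n generalizing y with
  | zero =>
    refine Cg_succ_induction (n := 0) ?_ ?_ ⟨0, zero_mem _, 0, zero_mem _, by simp⟩
      (hadd 0) (hsmul 0) hy
    · intro i j z hz
      obtain ⟨r, rfl⟩ := Cg_zero hz
      exact ⟨_, xi_Lx i j (Submodule.smul_mem _ r h1), 0, zero_mem _, by simp⟩
    · intro z hz
      obtain ⟨r, rfl⟩ := Cg_zero hz
      exact ⟨0, zero_mem _, _, Submodule.smul_mem _ r h1, by simp⟩
  | succ n ih =>
    refine Cg_succ_induction (n := n + 1) ?_ ?_ ⟨0, zero_mem _, 0, zero_mem _, by simp⟩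
      (hadd _) (hsmul _) hy
    · intro i j z hz
      obtain ⟨p, hp, q, hq, rfl⟩ := ih (by exact_mod_cast hz)
      exact ⟨_, xi_Lx i j hp, _, xi_Lx i j hq, by rw [mul_add, mul_assoc]⟩
    · intro z hz
      obtain ⟨p, hp, q, hq, rfl⟩ := ih (by exact_mod_cast hz)
      obtain ⟨p1, hp1, q1, hq1, h1⟩ := tau_Lx hp
      obtain ⟨p2, hp2, q2, hq2, h2⟩ := tau_Lx hq
      refine ⟨p1, hp1, q1 + p2, add_mem hq1 hp2, ?_⟩
      have h3 := (relsC K).tt
      linear_combination (norm := noncomm_ring) h1 + h2 * tau K + q2 * h3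

lemma Cg_six {y : C K} (hy : y ∈ Cg K 6) : y = 0 := by
  obtain ⟨p, hp, q, hq, rfl⟩ := Cg_Lx 5 (by exact_mod_cast hy)
  rw [Lx_big (by norm_num) hp, Lx_big le_rfl hq]; simp

lemma Cg_fg (n : ℕ) : (Cg K n).FG := by
  rw [Cg_nat]
  apply Submodule.FG.pow
  exact Submodule.fg_span ((Set.finite_singleton _).union (Set.finite_range _))

lemma mem_sup_Cg (y : C K) : y ∈ ⨆ n : Fin 6, Cg K (n : ℕ) := by
  have key : ∀ g ∈ Cg K 1, ∀ y ∈ ⨆ n : Fin 6, Cg K (n : ℕ), g * y ∈ ⨆ n : Fin 6, Cg K (n : ℕ) := by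
    intro g hg y hy
    induction hy using Submodule.iSup_induction' with
    | mem n y hy =>
      have h := Cg_mul hg hy
      by_cases hn : (n : ℕ) = 5
      · rw [hn] at h
        rw [Cg_six (y := g * y) (by exact_mod_cast h)]; exact zero_mem _
      · refine Submodule.mem_iSup_of_mem ⟨n + 1, by omega⟩ ?_
        push_cast
        rw [add_comm]; exact h
    | zero => simp
    | add a b _ _ ha hb => rw [mul_add]; exact add_mem ha hb
  induction y using C_induction with
  | h1 => exact Submodule.mem_iSup_of_mem 0 one_mem_Cg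
  | hx i j y hy => exact key _ (xi_mem i j) y hy
  | ht y hy => exact key _ tau_mem y hy
  | hadd y z hy hz => exact add_mem hy hz
  | hsmul r y hy => exact Submodule.smul_mem _ r hy

instance : Module.Finite K (C K) := by
  constructor
  have : (⊤ : Submodule K (C K)) = ⨆ n : Fin 6, Cg K (n : ℕ) :=
    (eq_top_iff.2 fun y _ => mem_sup_Cg y).symm
  rw [this]
  exact Submodule.fg_iSup _ fun n => Cg_fg n

end Vale.Agent.P176
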