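import Vale.Agent.P176.Step

/-! The representations of gl2 on polynomials and the main theorem. -/

namespace Vale.Agent.P176

open Finset Matrix

variable {K : Type} [Field K]

/-- weighted shift -/
def op (s : ℤ) (f : ℤ → K) : (ℤ → K) →ₗ[K] (ℤ → K) where
  toFun v p := f p * v (p - s)
  map_add' v w := by ext p; simp [mul_add]
  map_smul' r v := by ext p; simp [mul_left_comm]

lemma op_apply (s : ℤ) (f v : ℤ → K) (p : ℤ) : op s f v p = f p * v (p - s) := rfl

/-- matrix of an operator -/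
def mat (m n : ℕ) (T : (ℤ → K) →ₗ[K] (ℤ → K)) : Matrix (Fin m) (Fin n) K :=
  Matrix.of fun p q => T (Pi.single ((q : ℕ) : ℤ) 1) ((p : ℕ) : ℤ)

/-- support preservation -/
def Pres (n n' : ℕ) (T : (ℤ → K) →ₗ[K] (ℤ → K)) : Prop :=
  ∀ (q : Fin n) (p : ℤ), ¬ (0 ≤ p ∧ p < n') → T (Pi.single ((q : ℕ) : ℤ) 1) p = 0

lemma Pres_op {n n' : ℕ} {s : ℤ} {f : ℤ → K}
    (h : ∀ p : ℤ, ¬ (0 ≤ p ∧ p < n') → 0 ≤ p - s → p - s < n → f p = 0) : Pres n n' (op s f) := by
  intro q p hp
  rw [op_apply, Pi.single_apply]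
  split_ifs with h1
  · rw [h p hp (by omega) (by omega), zero_mul]
  · rw [mul_zero]

lemma mat_mul {m n r : ℕ} (T : (ℤ → K) →ₗ[K] (ℤ → K)) {S : (ℤ → K) →ₗ[K] (ℤ → K)}
    (h : Pres r n S) : mat m n T * mat n r S = mat m r (T ∘ₗ S) := by
  ext p q
  have e : S (Pi.single ((q : ℕ) : ℤ) 1) = ∑ j : Fin n,
      S (Pi.single ((q : ℕ) : ℤ) 1) ((j : ℕ) : ℤ) • (Pi.single ((j : ℕ) : ℤ) 1 : ℤ → K) := by
    ext x
    simp only [Finset.sum_apply, Pi.smul_apply, Pi.single_apply, smul_eq_mul, mul_ite, mul_one,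
      mul_zero]
    by_cases hx : 0 ≤ x ∧ x < n
    · rw [Finset.sum_eq_single (⟨x.toNat, by omega⟩ : Fin n)]
      · simp [hx.1]
      · intro j _ hj
        rw [if_neg]
        rintro rfl
        exact hj (Fin.ext (by simp))
      · simp
    · rw [h q x hx, Finset.sum_eq_zero]
      intro j _
      rw [if_neg]
      rintro rfl
      exact hx ⟨by omega, by omega⟩
  simp only [mat, Matrix.mul_apply, of_apply, LinearMap.comp_apply]
  conv_rhs => rw [e]
  simp [map_sum, mul_comm]

lemma mat_id (n : ℕ) : mat n n (LinearMap.id : (ℤ → K) →ₗ[K] (ℤ → K)) = 1 := by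
  ext p q
  simp [mat, Pi.single_apply, Matrix.one_apply, Fin.ext_iff]

variable (K) in
/-- the gl2 operators -/
def Eop (k : ℕ) : Fin 2 → Fin 2 → ((ℤ → K) →ₗ[K] (ℤ → K)) :=
  ![![op 0 (fun p => p + 1), op 1 (fun p => k - p)],
    ![op (-1) (fun p => p + 1), op 0 (fun p => k - p)]]

variable (K) in
/-- inclusion operators -/
def Aop : Fin 2 → ((ℤ → K) →ₗ[K] (ℤ → K)) := ![op 0 (fun _ => 1), op 1 (fun _ => -1)]

variable (K) in
/-- projection operators -/
def Bop (k : ℕ) : Fin 2 → ((ℤ → K) →ₗ[K] (ℤ → K)) :=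
  ![op 0 (fun p => k - p), op (-1) (fun p => -(p + 1))]

lemma Pres_E (k : ℕ) (i j : Fin 2) : Pres k k (Eop K k i j) := by
  fin_cases i <;> fin_cases j <;> refine Pres_op fun p h1 h2 h3 => ?_
  · omega
  · obtain rfl : p = k := by omega
    simp
  · obtain rfl : p = -1 := by omega
    simp
  · omega

lemma Pres_A (k : ℕ) (i : Fin 2) : Pres k (k + 1) (Aop K i) := by
  fin_cases i <;> refine Pres_op fun p h1 h2 h3 => ?_ <;> push_cast at h1 <;> omega

lemma Pres_B (k : ℕ) (i : Fin 2) : Pres (k + 1) k (Bop K k i) := by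
  fin_cases i <;> refine Pres_op fun p h1 h2 h3 => ?_ <;> push_cast at h3
  · obtain rfl : p = k := by omega
    simp
  · obtain rfl : p = -1 := by omega
    simp

variable (K) in
/-- the representation of dimension k -/
def Fk (k : ℕ) (i j : Fin 2) : Matrix (Fin k) (Fin k) K := mat k k (Eop K k i j)

lemma GL_Fk (k : ℕ) : GLrel (Fk K k) := by
  intro i j a b
  simp only [Fk, mat_mul _ (Pres_E k _ _)]
  ext p q
  fin_cases i <;> fin_cases j <;> fin_cases a <;> fin_cases b <;>
    simp [mat, Eop, op_apply] <;> ring_nf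

/-- step data -/
noncomputable def stepK [CharZero K] (k : ℕ) : StepData (Fk K (k + 1)) (Fk K k) where
  β := Matrix.of fun x q => mat (k + 1) k (Aop K x.1) x.2 q
  α := Matrix.of fun q x => mat k (k + 1) (Bop K k x.1) q x.2
  n := k + 1
  hn := Nat.cast_add_one_ne_zero k
  hF := GL_Fk _
  hβ i j := by
    ext ⟨v, p⟩ q
    have e1 := congrFun (congrFun (mat_mul (m := k + 1) (Eop K (k + 1) i j) (Pres_A k v)) p) q
    have e2 := congrFun (congrFun (mat_mul (m := k + 1) (Aop K v) (Pres_E k i j)) p) q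
    simp only [Matrix.mul_apply] at e1 e2
    simp only [Matrix.mul_apply, Fp_apply, of_apply, Fintype.sum_prod_type, add_mul,
      Finset.sum_add_distrib, ite_mul, zero_mul, Finset.sum_ite_eq, Finset.mem_univ, if_true,
      Finset.sum_ite_irrel, Finset.sum_const_zero, Fk, e1, e2]
    fin_cases i <;> fin_cases j <;> fin_cases v <;>
      simp [mat, Eop, Aop, op_apply, rho, Fin.sum_univ_two, -mul_eq_mul_right_iff,
        -mul_eq_mul_left_iff] <;> ring_nf
  hα i j := by
    ext q ⟨w, p⟩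
    have e1 := congrFun (congrFun (mat_mul (m := k) (Bop K k w) (Pres_E (k + 1) i j)) q) p
    have e2 := congrFun (congrFun (mat_mul (m := k) (Eop K k i j) (Pres_B k w)) q) p
    simp only [Matrix.mul_apply] at e1 e2
    simp only [Matrix.mul_apply, Fp_apply, of_apply, Fintype.sum_prod_type, mul_add,
      Finset.sum_add_distrib, mul_ite, mul_zero, Finset.sum_ite_eq', Finset.mem_univ, if_true,
      Finset.sum_ite_irrel, Finset.sum_const_zero, Fk, e1, e2]
    fin_cases i <;> fin_cases j <;> fin_cases w <;>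
      simp [mat, Eop, Bop, op_apply, rho, Fin.sum_univ_two, -mul_eq_mul_right_iff,
        -mul_eq_mul_left_iff] <;> ring_nf
  hαβ := by
    ext q p
    have e1 := fun w => congrFun (congrFun (mat_mul (m := k) (Bop K k w) (Pres_A k w)) q) p
    simp only [Matrix.mul_apply] at e1
    simp only [Matrix.mul_apply, of_apply, Fintype.sum_prod_type, e1, ← mat_id]
    simp [mat, Aop, Bop, op_apply, Fin.sum_univ_two]
    ring_nf
  hβα := by
    ext ⟨v, p⟩ ⟨w, q⟩
    have e1 := congrFun (congrFun (mat_mul (m := k + 1) (Aop K v) (Pres_B k w)) p) q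
    simp only [Matrix.mul_apply] at e1
    have e2 := congrFun (congrFun (mat_id (K := K) (k + 1)) p) q
    rw [Matrix.one_apply] at e2
    simp only [Matrix.mul_apply, Matrix.add_apply, of_apply, e1, cM_apply, Fk, Matrix.smul_apply,
      Matrix.one_apply, Prod.mk.injEq, ite_and, ← e2]
    fin_cases v <;> fin_cases w <;> simp [mat, Eop, Aop, Bop, op_apply] <;> ring_nf

theorem FP_Yk [CharZero K] (k : ℕ) : FP (Alg K) (YY (Fk K k)) := by
  induction k with
  | zero =>
    have : Subsingleton (YY (Fk K 0)) :=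
      ⟨fun m n => Subtype.ext (Col.ext (by ext _ p; exact p.elim0))⟩
    exact FP.of_subsingleton _
  | succ k ih => exact (stepK k).FP_Y ih

theorem not_PD_Yk [CharZero K] (n : ℕ) : ¬ PD (Alg K) (YY (Fk K (1 + n + 1))) (n + 1) := by
  have : Nontrivial (YY (Fk K 1)) := Y_nontrivial (GL_Fk 1) 0
  exact lower (II K) II_left II_right II_sq (fun k => XX (Fk K (k + 1)))
    (fun k => HH (Fk K (k + 1))) (fun k => YY (Fk K k)) (fun k => (XX _).subtype)
    (fun k => pH _) (fun k => (stepK k).gX) (fun k => Submodule.injective_subtype _)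
    (fun k => pH_surj _) (fun k => (stepK k).gX_surj)
    (fun k => LinearMap.exact_subtype_ker_map _) (fun k => II_X _) (fun k => II_H (GL_Fk _))
    (fun k => II_Y _) 1 n

end Vale.Agent.P176
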