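import Vale.Agent.P176.Cdef

/-! The differential, its exactness, and the translation homomorphism. -/

namespace Vale.Agent.P176

open Finset Matrix

variable {K : Type} [Field K]

lemma tri_zero {R : Type} [Ring R] [Algebra K R] {x e : Fin 2 → Fin 2 → R} {t : R}
    (h : Rels (fun i j => !![x i j, 0; e i j, -x i j]) !![t, 0; 1, -t]) (y : C K) :
    liftC (K := K) h y 0 1 = 0 := by
  induction y using C_induction with
  | h1 => simp
  | hx i j y hy => simp [liftC_xi, Matrix.mul_apply, Fin.sum_univ_two, hy]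
  | ht y hy => simp [liftC_tau, Matrix.mul_apply, Fin.sum_univ_two, hy]
  | hadd y z hy hz => simp [hy, hz]
  | hsmul r y hy => simp [hy]

variable (K) in
/-- derivation in the direction of tau, packaged as a matrix homomorphism -/
noncomputable def Th0 : C K →ₐ[K] Matrix (Fin 2) (Fin 2) (C K) :=
  liftC ((relsC K).tri (e := fun _ _ => 0) (by simp) (by simp))

lemma Th0_xi (i j : Fin 2) : Th0 K (xi K i j) = !![xi K i j, 0; 0, -xi K i j] := liftC_xi _ i j
lemma Th0_tau : Th0 K (tau K) = !![tau K, 0; 1, -tau K] := liftC_tau _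
lemma Th0_01 (y : C K) : Th0 K y 0 1 = 0 := tri_zero _ y

lemma Th0_00 (y : C K) : Th0 K y 0 0 = y := by
  induction y using C_induction with
  | h1 => simp
  | hx i j y hy => simp [Th0_xi, Matrix.mul_apply, Fin.sum_univ_two, hy]
  | ht y hy => simp [Th0_tau, Matrix.mul_apply, Fin.sum_univ_two, hy]
  | hadd y z hy hz => simp [hy, hz]
  | hsmul r y hy => simp [hy]

/-- sign -/
def sg (K : Type) [Field K] (n : ℤ) : K := if Even n then 1 else -1

lemma sg_succ (n : ℤ) : sg K (n + 1) = - sg K n := by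
  unfold sg
  by_cases h : Even n <;> simp [Int.even_add_one, h]

lemma sg_sq (n : ℤ) : sg K n * sg K n = 1 := by
  unfold sg
  split_ifs <;> simp

lemma Th0_tau10 (y : C K) : Th0 K (y * tau K) 1 0 = Th0 K y 1 0 * tau K + Th0 K y 1 1 := by
  simp [Th0_tau, Matrix.mul_apply, Fin.sum_univ_two]

lemma Th0_xi10 (y : C K) (i j : Fin 2) :
    Th0 K (y * xi K i j) 1 0 = Th0 K y 1 0 * xi K i j := by
  simp [Th0_xi, Matrix.mul_apply, Fin.sum_univ_two]

lemma Th0_deg (n : ℤ) {y : C K} (hy : y ∈ Cg K n) :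
    Th0 K y 1 0 ∈ Cg K (n - 1) ∧ Th0 K y 1 1 = sg K n • y := by
  refine Cg_induction (P := fun n y => Th0 K y 1 0 ∈ Cg K (n - 1) ∧
    Th0 K y 1 1 = sg K n • y) ?_ ?_ ?_ ?_ ?_ ?_ n hy
  · simp [sg]
  · rintro n i j z - ⟨h1, h2⟩
    constructor
    · simp only [map_mul, Th0_xi, Matrix.mul_apply, Fin.sum_univ_two]
      simp only [Fin.isValue, of_apply, cons_val', cons_val_zero, cons_val_one, cons_val_fin_one,
        zero_mul, neg_mul, zero_add, neg_mem_iff]
      exact Cg_mul' (xi_mem i j) h1 (by ring)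
    · simp [Th0_xi, Matrix.mul_apply, Fin.sum_univ_two, h2, sg_succ]
  · rintro n z hz ⟨h1, h2⟩
    constructor
    · simp only [map_mul, Th0_tau, Matrix.mul_apply, Fin.sum_univ_two, Th0_00]
      simp only [Fin.isValue, of_apply, cons_val', cons_val_zero, cons_val_one, cons_val_fin_one,
        one_mul, neg_mul, add_sub_cancel_right]
      exact add_mem hz (neg_mem (Cg_mul' tau_mem h1 (by ring)))
    · simp [Th0_tau, Matrix.mul_apply, Fin.sum_univ_two, h2, sg_succ, Th0_01]
  · simp
  · rintro n y z ⟨h1, h2⟩ ⟨h3, h4⟩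
    exact ⟨by simpa using add_mem h1 h3, by simp [h2, h4]⟩
  · rintro n r y ⟨h1, h2⟩
    exact ⟨by simpa using Submodule.smul_mem _ r h1, by simp [h2, smul_comm r]⟩

section delta

variable {ι κ : Type} [Fintype ι] [DecidableEq ι] [Fintype κ] [DecidableEq κ]

/-- the differential attached to a representation -/
noncomputable def dl (F : Fin 2 → Fin 2 → Matrix ι ι K) : Matrix ι ι (C K) :=
  fun q p => (if q = p then tau K else 0) - ∑ i, ∑ j, F i j q p • xi K i j

/-- scalar matrices -/
noncomputable def sc' (T : Matrix ι κ K) : Matrix ι κ (C K) := T.map (algebraMap K (C K))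

omit [DecidableEq ι] [Fintype κ] [DecidableEq κ] in
lemma vecMul_sc' (u : ι → C K) (T : Matrix ι κ K) (p : κ) :
    (u ᵥ* sc' T) p = ∑ q, T q p • u q := by
  simp only [vecMul, dotProduct, sc', map_apply]
  refine Finset.sum_congr rfl fun q _ => ?_
  rw [← Algebra.commutes, Algebra.smul_def]

lemma vecMul_dl (F : Fin 2 → Fin 2 → Matrix ι ι K) (u : ι → C K) (p : ι) :
    (u ᵥ* dl F) p = u p * tau K - ∑ i, ∑ j, ∑ q, F i j q p • (u q * xi K i j) := by
  simp only [vecMul, dotProduct, dl, mul_sub, Finset.sum_sub_distrib, mul_ite, mul_zero,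
    Finset.sum_ite_eq', Finset.mem_univ, if_true, Finset.mul_sum, mul_smul_comm]
  congr 1
  rw [Finset.sum_comm]
  refine Finset.sum_congr rfl fun i _ => ?_
  rw [Finset.sum_comm]

omit [Fintype ι] in
lemma dl_mem (F : Fin 2 → Fin 2 → Matrix ι ι K) (q p : ι) : dl F q p ∈ Cg K 1 := by
  refine sub_mem ?_ (Submodule.sum_mem _ fun i _ => Submodule.sum_mem _ fun j _ =>
    Submodule.smul_mem _ _ (xi_mem i j))
  split_ifs
  · exact tau_mem
  · exact zero_mem _

lemma vecMul_dl_mem (F : Fin 2 → Fin 2 → Matrix ι ι K) {n : ℤ} {u : ι → C K}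
    (hu : ∀ p, u p ∈ Cg K n) (p : ι) : (u ᵥ* dl F) p ∈ Cg K (n + 1) :=
  Submodule.sum_mem _ fun q _ => Cg_mul (hu q) (dl_mem F q p)

omit [DecidableEq ι] [Fintype κ] [DecidableEq κ] in
lemma vecMul_sc'_mem (T : Matrix ι κ K) {n : ℤ} {u : ι → C K}
    (hu : ∀ p, u p ∈ Cg K n) (p : κ) : (u ᵥ* sc' T) p ∈ Cg K n := by
  rw [vecMul_sc']
  exact Submodule.sum_mem _ fun q _ => Submodule.smul_mem _ _ (hu q)

lemma exact_row (F : Fin 2 → Fin 2 → Matrix ι ι K) {n : ℤ} {u : ι → C K}
    (hu : ∀ p, u p ∈ Cg K n) (h : u ᵥ* dl F = 0) :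
    ∃ z : ι → C K, (∀ p, z p ∈ Cg K (n - 1)) ∧ z ᵥ* dl F = u := by
  refine ⟨fun p => (-sg K n) • Th0 K (u p) 1 0,
    fun p => Submodule.smul_mem _ _ (Th0_deg n (hu p)).1, ?_⟩
  ext p
  have h1 := congrFun h p
  rw [vecMul_dl] at h1
  have h2 := congrArg (fun y => Th0 K y 1 0) h1
  simp only [map_sub, map_sum, map_smul, Matrix.sub_apply, Matrix.sum_apply, Matrix.smul_apply,
    Th0_tau10, Th0_xi10, (Th0_deg n (hu p)).2, Pi.zero_apply, map_zero, Matrix.zero_apply] at h2
  rw [vecMul_dl]
  simp only [smul_mul_assoc, smul_comm _ (-sg K n), ← Finset.smul_sum, ← smul_sub]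
  rw [add_sub_right_comm, add_eq_zero_iff_eq_neg] at h2
  rw [h2, smul_neg, smul_smul, neg_mul, sg_sq]
  simp

/-- gl2 relations -/
def GLrel (F : Fin 2 → Fin 2 → Matrix ι ι K) : Prop :=
  ∀ i j k l, F i j * F k l - F k l * F i j =
    (if j = k then F i l else 0) - (if l = i then F k j else 0)

lemma dl_sq {F : Fin 2 → Fin 2 → Matrix ι ι K} (hF : GLrel F) : dl F * dl F = 0 := by
  ext q p
  have e : (dl F * dl F) q p = ((dl F q) ᵥ* dl F) p := rfl
  rw [e, vecMul_dl]
  have e2 : ∀ i j, ∑ r, F i j r p • (dl F q r * xi K i j) =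
      F i j q p • (tau K * xi K i j) - ∑ k, ∑ l, (F k l * F i j) q p • (xi K k l * xi K i j) := by
    intro i j
    simp only [dl, sub_mul, smul_sub, Finset.sum_sub_distrib, ite_mul, zero_mul, smul_ite,
      smul_zero, Finset.sum_ite_eq, Finset.mem_univ, if_true, Finset.sum_mul, smul_mul_assoc,
      Finset.smul_sum, smul_smul, Matrix.mul_apply, Finset.sum_smul]
    congr 1
    rw [Finset.sum_comm]
    refine Finset.sum_congr rfl fun k _ => ?_
    rw [Finset.sum_comm]
    refine Finset.sum_congr rfl fun l _ => Finset.sum_congr rfl fun r _ => ?_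
    rw [mul_comm]
  simp only [e2]
  have h := relsC K
  have r : ∀ i j k l, (F i j * F k l) q p = (F k l * F i j) q p +
      ((if j = k then F i l else 0) - (if l = i then F k j else 0) : Matrix ι ι K) q p := by
    intro i j k l
    rw [← hF i j k l]; simp
  have m : ∀ i l, tau K * xi K i l = ∑ j, xi K i j * xi K j l - xi K i l * tau K :=
    fun i l => eq_sub_of_add_eq (h.mc i l)
  have a : ∀ i j k l, xi K i j * xi K k l = -(xi K k l * xi K i j) :=
    fun i j k l => eq_neg_of_add_eq_zero_left (h.anti i j k l)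
  simp only [dl, sub_mul, ite_mul, zero_mul, h.tt, ite_self, Finset.sum_mul, smul_mul_assoc,
    Fin.sum_univ_two, m, h.sq, Matrix.zero_apply, add_mul]
  rw [r 0 1 0 0, r 1 0 0 0, r 1 1 0 0, r 1 0 0 1, r 1 1 0 1, r 1 1 1 0,
    a 0 1 0 0, a 1 0 0 0, a 1 1 0 0, a 1 0 0 1, a 1 1 0 1, a 1 1 1 0]
  simp only [Fin.isValue, zero_ne_one, one_ne_zero, if_true, if_false, Matrix.sub_apply,
    Matrix.zero_apply]
  module

lemma dl_comm {F : Fin 2 → Fin 2 → Matrix ι ι K} {G : Fin 2 → Fin 2 → Matrix κ κ K}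
    {T : Matrix ι κ K} (h : ∀ i j, F i j * T = T * G i j) : dl F * sc' T = sc' T * dl G := by
  ext q p
  have e : (dl F * sc' T) q p = ((dl F q) ᵥ* sc' T) p := rfl
  have e' : (sc' T * dl G) q p = ((sc' T q) ᵥ* dl G) p := rfl
  rw [e, e', vecMul_dl, vecMul_sc']
  simp only [dl, sc', map_apply, ← Algebra.smul_def, smul_sub, Finset.sum_sub_distrib, smul_ite,
    smul_zero, Finset.sum_ite_eq, Finset.mem_univ, if_true, Finset.smul_sum, smul_smul]
  congr 1
  rw [Finset.sum_comm]
  refine Finset.sum_congr rfl fun i _ => ?_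
  rw [Finset.sum_comm]
  refine Finset.sum_congr rfl fun j _ => ?_
  rw [← Finset.sum_smul, ← Finset.sum_smul]
  have := congrFun (congrFun (h i j) q) p
  simp only [Matrix.mul_apply] at this
  simp only [mul_comm (T _ p), mul_comm (G i j _ p), this]

omit [DecidableEq ι] [Fintype ι] [DecidableEq κ] in
lemma sc'_mul {μ : Type} (T : Matrix ι κ K) (S : Matrix κ μ K) :
    sc' (T * S) = sc' T * sc' S := Matrix.map_mul

end delta

variable (K) in
/-- twisted tau -/
noncomputable def Tw : Matrix (Fin 2) (Fin 2) (C K) :=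
  !![tau K - xi K 1 1, xi K 1 0; xi K 0 1, tau K - xi K 0 0]

lemma relsTw : Rels (fun i j => Matrix.diagonal (fun _ : Fin 2 => xi K i j)) (Tw K) where
  anti i j k l := by
    have := (relsC K).anti i j k l
    ext a b
    fin_cases a <;> fin_cases b <;> simp [this]
  sq i j := by
    have := (relsC K).sq i j
    ext a b
    fin_cases a <;> fin_cases b <;> simp [this]
  mc i l := by
    have h1 := (relsC K).mc i l
    have h2 := (relsC K).anti i l
    rw [Fin.sum_univ_two] at h1
    ext a b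
    fin_cases a <;> fin_cases b <;> simp [Tw, Fin.sum_univ_two]
    · linear_combination (norm := noncomm_ring) h1 - h2 1 1
    · linear_combination (norm := noncomm_ring) h2 1 0
    · linear_combination (norm := noncomm_ring) h2 0 1
    · linear_combination (norm := noncomm_ring) h1 - h2 0 0
  tt := by
    have h1 := (relsC K).mc
    have h2 := (relsC K).tt
    have h3 := (relsC K).sq
    simp only [Fin.sum_univ_two] at h1
    ext a b
    fin_cases a <;> fin_cases b <;> simp [Tw, Matrix.mul_apply, Fin.sum_univ_two]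
    · linear_combination (norm := noncomm_ring) h2 - h1 1 1
    · linear_combination (norm := noncomm_ring) h1 1 0
    · linear_combination (norm := noncomm_ring) h1 0 1
    · linear_combination (norm := noncomm_ring) h2 - h1 0 0

variable (K) in
/-- the translation homomorphism -/
noncomputable def Th : C K →ₐ[K] Matrix (Fin 2) (Fin 2) (Matrix (Fin 2) (Fin 2) (C K)) :=
  liftC (relsTw.tri (e := fun i j => Matrix.single i j 1)
    (by
      intro i j k l
      ext a b
      simp [Matrix.single_apply])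
    (by
      intro i l
      ext a b
      fin_cases i <;> fin_cases l <;> fin_cases a <;> fin_cases b <;>
        simp [Tw, Matrix.mul_apply, Fin.sum_univ_two, Matrix.single_apply, vecMul,
          dotProduct]))

lemma Th_xi (i j : Fin 2) : Th K (xi K i j) =
    !![Matrix.diagonal (fun _ => xi K i j), 0;
      Matrix.single i j 1, -Matrix.diagonal (fun _ => xi K i j)] := liftC_xi _ i j
lemma Th_tau : Th K (tau K) = !![Tw K, 0; 1, -Tw K] := liftC_tau _
lemma Th_01 (y : C K) : Th K y 0 1 = 0 := tri_zero _ y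

lemma Thx00 (i j v w : Fin 2) : Th K (xi K i j) 0 0 v w = if v = w then xi K i j else 0 := by
  simp [Th_xi, Matrix.diagonal_apply]
lemma Thx10 (i j v w : Fin 2) : Th K (xi K i j) 1 0 v w = if i = v ∧ j = w then 1 else 0 := by
  simp [Th_xi, Matrix.single_apply]
lemma Thx11 (i j v w : Fin 2) : Th K (xi K i j) 1 1 v w = if v = w then -xi K i j else 0 := by
  simp [Th_xi, Matrix.diagonal_apply]
lemma Tht00 (v w : Fin 2) : Th K (tau K) 0 0 v w = Tw K v w := by simp [Th_tau]
lemma Tht10 (v w : Fin 2) : Th K (tau K) 1 0 v w = if v = w then 1 else 0 := by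
  simp [Th_tau, Matrix.one_apply]
lemma Tht11 (v w : Fin 2) : Th K (tau K) 1 1 v w = -Tw K v w := by simp [Th_tau]

lemma Th_mul (y z : C K) (s t v w : Fin 2) :
    Th K (y * z) s t v w = ∑ s', ∑ v', Th K y s s' v v' * Th K z s' t v' w := by
  simp only [map_mul, Matrix.mul_apply, Matrix.sum_apply]

lemma Tw_mem (v w : Fin 2) : Tw K v w ∈ Cg K 1 := by
  fin_cases v <;> fin_cases w <;> simp only [Tw]
  · exact sub_mem tau_mem (xi_mem _ _)
  · exact xi_mem _ _
  · exact xi_mem _ _
  · exact sub_mem tau_mem (xi_mem _ _)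

lemma Th_deg (n : ℤ) {y : C K} (hy : y ∈ Cg K n) (s t v w : Fin 2) :
    Th K y s t v w ∈ Cg K (n + (t : ℕ) - (s : ℕ)) := by
  revert s t v w
  have hd : ∀ (i j v w : Fin 2), Matrix.diagonal (fun _ : Fin 2 => xi K i j) v w ∈ Cg K 1 := by
    intro i j v w
    rw [Matrix.diagonal_apply]
    split_ifs
    · exact xi_mem i j
    · exact zero_mem _
  have h1 : ∀ (v w : Fin 2), (1 : Matrix (Fin 2) (Fin 2) (C K)) v w ∈ Cg K 0 := by
    intro v w
    rw [Matrix.one_apply]
    split_ifs
    · exact one_mem_Cg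
    · exact zero_mem _
  have hx : ∀ i j s t v w : Fin 2, Th K (xi K i j) s t v w ∈ Cg K (1 + (t : ℕ) - (s : ℕ)) := by
    intro i j s t v w
    rw [Th_xi]
    fin_cases s <;> fin_cases t
    · simpa using hd i j v w
    · simp
    · simp only [Matrix.single_apply, Fin.mk_one, Fin.isValue, Fin.zero_eta, of_apply, cons_val',
        cons_val_zero, cons_val_one, cons_val_fin_one, CharP.cast_eq_zero, add_zero, Nat.cast_one,
        sub_self]
      split_ifs
      · exact one_mem_Cg
      · exact zero_mem _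
    · have := neg_mem (hd i j v w)
      simpa [-neg_mem_iff, -Matrix.diagonal_neg] using this
  have ht : ∀ s t v w : Fin 2, Th K (tau K) s t v w ∈ Cg K (1 + (t : ℕ) - (s : ℕ)) := by
    intro s t v w
    rw [Th_tau]
    fin_cases s <;> fin_cases t
    · simpa using Tw_mem v w
    · simp
    · simpa using h1 v w
    · simpa using Tw_mem v w
  refine Cg_induction (P := fun n y => ∀ s t v w : Fin 2,
    Th K y s t v w ∈ Cg K (n + (t : ℕ) - (s : ℕ))) ?_ ?_ ?_ ?_ ?_ ?_ n hy
  · intro s t v w
    rw [map_one]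
    fin_cases s <;> fin_cases t
    · simpa using h1 v w
    · simp
    · simp
    · simpa using h1 v w
  · intro n i j z _ h s t v w
    rw [Th_mul]
    exact Submodule.sum_mem _ fun s' _ => Submodule.sum_mem _ fun v' _ =>
      Cg_mul' (hx i j s s' v v') (h s' t v' w) (by ring)
  · intro n z _ h s t v w
    rw [Th_mul]
    exact Submodule.sum_mem _ fun s' _ => Submodule.sum_mem _ fun v' _ =>
      Cg_mul' (ht s s' v v') (h s' t v' w) (by ring)
  · simp
  · intro n y z h1 h2 s t v w
    simpa using add_mem (h1 s t v w) (h2 s t v w)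
  · intro n r y h s t v w
    simpa using Submodule.smul_mem _ r (h s t v w)

variable (K) in
/-- block of the translation functor on the free module -/
noncomputable def Ft (s t : Fin 2) : (Fin 2 → C K) →ₗ[K] (Fin 2 → C K) where
  toFun a v := ∑ w, Th K (a w) s t v w
  map_add' a b := by ext v; simp [Finset.sum_add_distrib]
  map_smul' r a := by ext v; simp [Finset.smul_sum]

lemma Ft_apply (s t : Fin 2) (a : Fin 2 → C K) (v : Fin 2) :
    Ft K s t a v = ∑ w, Th K (a w) s t v w := rfl

lemma Ft_01 (a : Fin 2 → C K) : Ft K 0 1 a = 0 := by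
  ext v; simp [Ft_apply, Th_01]

lemma Ft_mem (s t : Fin 2) {n : ℤ} {a : Fin 2 → C K} (ha : ∀ v, a v ∈ Cg K n) (v : Fin 2) :
    Ft K s t a v ∈ Cg K (n + (t : ℕ) - (s : ℕ)) := by
  rw [Ft_apply]
  exact Submodule.sum_mem _ fun w _ => Th_deg n (ha w) s t v w

lemma Ft_diag_mul (s : Fin 2) (g : C K) (a : Fin 2 → C K) :
    Ft K s s (fun v => g * a v) = (Th K g s s) *ᵥ (Ft K s s a) := by
  ext v
  simp only [Ft_apply, Th_mul, mulVec, dotProduct]
  fin_cases s <;> simp [Fin.sum_univ_two, Th_01, mul_add] <;> abel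

lemma Ft_surj_deg (s : Fin 2) (n : ℤ) (z : Fin 2 → C K) (hz : ∀ v, z v ∈ Cg K n) :
    ∃ a : Fin 2 → C K, (∀ v, a v ∈ Cg K n) ∧ Ft K s s a = z := by
  let S : ℤ → Submodule K (Fin 2 → C K) := fun n =>
    (Submodule.pi Set.univ (fun _ => Cg K n)).map (Ft K s s)
  have hS : ∀ n z, z ∈ S n ↔ ∃ a : Fin 2 → C K, (∀ v, a v ∈ Cg K n) ∧ Ft K s s a = z := by
    intro n z; simp [S, Submodule.mem_pi]
  have hsum : ∀ z : Fin 2 → C K, z = Pi.single 0 (z 0) + Pi.single 1 (z 1) := by
    intro z; ext v; fin_cases v <;> simp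
  have hxi : ∀ n i j z, z ∈ S n → (fun v => xi K i j * z v) ∈ S (n + 1) := by
    intro n i j z hz
    obtain ⟨a, ha, rfl⟩ := (hS n z).1 hz
    have h1 : Ft K s s (fun v => xi K i j * a v) ∈ S (n + 1) :=
      (hS _ _).2 ⟨_, fun v => Cg_mul' (xi_mem i j) (ha v) (by ring), rfl⟩
    rw [Ft_diag_mul, Th_xi] at h1
    have e : Matrix.diagonal (fun _ : Fin 2 => xi K i j) *ᵥ Ft K s s a =
        fun v => xi K i j * Ft K s s a v := by ext v; simp [mulVec_diagonal]
    rw [← e]
    fin_cases s
    · exact h1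
    · have h2 := neg_mem h1
      rw [← neg_mulVec] at h2
      simpa only [Fin.mk_one, Fin.isValue, of_apply, cons_val', cons_val_one, cons_val_fin_one,
        neg_neg] using h2
  have key : ∀ y ∈ Cg K n, ∀ v, Pi.single v y ∈ S n := by
    intro y hy
    refine Cg_induction (P := fun n y => ∀ v, Pi.single v y ∈ S n) ?_ ?_ ?_ ?_ ?_ ?_ n hy
    · intro v
      refine (hS _ _).2 ⟨Pi.single v 1, ?_, ?_⟩
      · intro w
        by_cases h : w = v
        · subst h; simpa using one_mem_Cg
        · simp [h]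
      · ext w
        fin_cases v <;> fin_cases w <;> simp [Ft_apply, Fin.sum_univ_two]
    · intro n i j z _ h v
      have := hxi n i j _ (h v)
      have e : (fun w => xi K i j * (Pi.single v z : Fin 2 → C K) w) =
          Pi.single v (xi K i j * z) := by
        ext w; fin_cases v <;> fin_cases w <;> simp
      rwa [e] at this
    · intro n z _ h v
      obtain ⟨a, ha, he⟩ := (hS n _).1 (h v)
      have h1 : Ft K s s (fun v => tau K * a v) ∈ S (n + 1) :=
        (hS _ _).2 ⟨_, fun v => Cg_mul' tau_mem (ha v) (by ring), rfl⟩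
      rw [Ft_diag_mul, Th_tau, he] at h1
      have h2 : Tw K *ᵥ (Pi.single v z) ∈ S (n + 1) := by
        fin_cases s
        · exact h1
        · have h2 := neg_mem h1
          rw [← neg_mulVec] at h2
          simpa only [Fin.mk_one, Fin.isValue, of_apply, cons_val', cons_val_one,
            cons_val_fin_one, neg_neg] using h2
      fin_cases v
      · have e : (Pi.single 0 (tau K * z) : Fin 2 → C K) = Tw K *ᵥ (Pi.single 0 z) +
            (fun w => xi K 1 1 * (Pi.single 0 z : Fin 2 → C K) w) -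
            (fun w => xi K 0 1 * (Pi.single 1 z : Fin 2 → C K) w) := by
          ext w; fin_cases w <;> simp [Tw, sub_mul]
        simp only [Fin.zero_eta] at h2 ⊢
        rw [e]
        exact sub_mem (add_mem h2 (hxi n _ _ _ (h 0))) (hxi n _ _ _ (h 1))
      · have e : (Pi.single 1 (tau K * z) : Fin 2 → C K) = Tw K *ᵥ (Pi.single 1 z) +
            (fun w => xi K 0 0 * (Pi.single 1 z : Fin 2 → C K) w) -
            (fun w => xi K 1 0 * (Pi.single 0 z : Fin 2 → C K) w) := by
          ext w; fin_cases w <;> simp [Tw, sub_mul]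
        simp only [Fin.mk_one] at h2 ⊢
        rw [e]
        exact sub_mem (add_mem h2 (hxi n _ _ _ (h 1))) (hxi n _ _ _ (h 0))
    · simp
    · intro n y z h1 h2 v
      rw [Pi.single_add]; exact add_mem (h1 v) (h2 v)
    · intro n r y h v
      rw [Pi.single_smul]; exact Submodule.smul_mem _ r (h v)
  rw [← hS, hsum z]
  exact add_mem (key _ (hz 0) 0) (key _ (hz 1) 1)

lemma Ft_inj (s : Fin 2) : Function.Injective (Ft K s s) := by
  rw [LinearMap.injective_iff_surjective, ← LinearMap.range_eq_top, eq_top_iff]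
  intro z _
  have key : ∀ (y : C K) (v : Fin 2), Pi.single v y ∈ LinearMap.range (Ft K s s) := by
    intro y v
    have hy := mem_sup_Cg y
    induction hy using Submodule.iSup_induction' with
    | mem n y hy =>
      obtain ⟨a, -, ha⟩ := Ft_surj_deg s _ (Pi.single v y) (fun w => by
        by_cases h : w = v
        · subst h; simpa using hy
        · simp [h])
      exact ⟨a, ha⟩
    | zero => simp
    | add a b _ _ ha hb => rw [Pi.single_add]; exact add_mem ha hb
  have hsum : z = Pi.single 0 (z 0) + Pi.single 1 (z 1) := by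
    ext v; fin_cases v <;> simp
  rw [hsum]
  exact add_mem (key _ _) (key _ _)

/-- the twisted standard representation -/
def rho (i j v w : Fin 2) : K :=
  (if v = i ∧ w = j then 1 else 0) - (if i = j ∧ v = w then 1 else 0)

lemma Ft_tau0 (s : Fin 2) (a : Fin 2 → C K) :
    Ft K s 0 (fun w => a w * tau K - ∑ i, ∑ j, ∑ v, (rho i j v w : K) • (a v * xi K i j)) =
      fun v => Ft K s 0 a v * tau K := by
  ext v
  simp only [Ft_apply, map_sub, map_sum, map_smul, Matrix.sub_apply, Matrix.sum_apply,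
    Matrix.smul_apply, Th_mul]
  simp [Fin.sum_univ_two, rho, Thx00, Thx10, Tht00, Tht10, Tw]
  noncomm_ring

lemma Ft_tau1 (s : Fin 2) (a : Fin 2 → C K) :
    Ft K s 1 (fun w => a w * tau K - ∑ i, ∑ j, ∑ v, (rho i j v w : K) • (a v * xi K i j)) =
      fun v => -(Ft K s 1 a v * tau K) := by
  ext v
  simp only [Ft_apply, map_sub, map_sum, map_smul, Matrix.sub_apply, Matrix.sum_apply,
    Matrix.smul_apply, Th_mul]
  simp [Fin.sum_univ_two, rho, Thx11, Tht11, Th_01, Tw]
  noncomm_ring

lemma Ft_xi0 (s i j : Fin 2) (a : Fin 2 → C K) :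
    Ft K s 0 (fun w => a w * xi K i j) =
      fun v => Ft K s 0 a v * xi K i j + Th K (a j) s 1 v i := by
  ext v
  simp only [Ft_apply, Th_mul]
  fin_cases i <;> fin_cases j <;> simp [Fin.sum_univ_two, Thx00, Thx10] <;> noncomm_ring

lemma Ft_xi1 (s i j : Fin 2) (a : Fin 2 → C K) :
    Ft K s 1 (fun w => a w * xi K i j) = fun v => -(Ft K s 1 a v * xi K i j) := by
  ext v
  simp only [Ft_apply, Th_mul]
  simp [Fin.sum_univ_two, Thx11, Th_01]
  noncomm_ring

end Vale.Agent.P176
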