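import Vale.Agent.P176.Alg

/-! The inductive step. -/

namespace Vale.Agent.P176

open Finset Matrix

variable {K : Type} [Field K] {ι κ : Type} [Fintype ι] [DecidableEq ι] [Fintype κ] [DecidableEq κ]

/-- tensor product with the twisted standard representation -/
def Fp (F : Fin 2 → Fin 2 → Matrix ι ι K) (i j : Fin 2) : Matrix (Fin 2 × ι) (Fin 2 × ι) K :=
  fun x y => (if x.1 = y.1 then F i j x.2 y.2 else 0) + (if x.2 = y.2 then rho i j x.1 y.1 else 0)

/-- the natural endomorphism -/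
def cM (F : Fin 2 → Fin 2 → Matrix ι ι K) : Matrix (Fin 2 × ι) (Fin 2 × ι) K :=
  fun x y => F y.1 x.1 x.2 y.2

omit [Fintype ι] in
lemma Fp_apply (F : Fin 2 → Fin 2 → Matrix ι ι K) (i j : Fin 2) (x y : Fin 2 × ι) :
    Fp F i j x y = (if x.1 = y.1 then F i j x.2 y.2 else 0) +
      (if x.2 = y.2 then rho i j x.1 y.1 else 0) := rfl

omit [Fintype ι] [DecidableEq ι] in
lemma cM_apply (F : Fin 2 → Fin 2 → Matrix ι ι K) (x y : Fin 2 × ι) :
    cM F x y = F y.1 x.1 x.2 y.2 := rfl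

/-- element from rows -/
def Col.rows {Λ : Type} [Fintype Λ] [DecidableEq Λ] (R : GRep K Λ) {ι : Type}
    (f : Λ → ι → C K) : Col R ι := Col.of R (Matrix.of f)

lemma Col.rows_m {Λ : Type} [Fintype Λ] [DecidableEq Λ] (R : GRep K Λ) {ι : Type}
    (f : Λ → ι → C K) (x : Λ) : (Col.rows R f).m x = f x := rfl

lemma R1_d (j : Fin 6) : (R1 K).d j = (j : ℕ) := rfl
lemma R2_dl (j : Fin 5) : (R2 K).d (Sum.inl j) = (j : ℕ) + 1 := rfl
lemma R2_dr (x : L1) : (R2 K).d (Sum.inr x) = (x.1 : ℕ) + 1 := rfl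

/-- rowwise translation -/
noncomputable def FT (s t : Fin 2) (y : Fin 2 × ι → C K) (v : Fin 2) : ι → C K :=
  fun p => Ft K s t (fun w => y (w, p)) v

lemma vecMul_dl_Fp (F : Fin 2 → Fin 2 → Matrix ι ι K) (y : Fin 2 × ι → C K) (p : ι) :
    (fun w => (y ᵥ* dl (Fp F)) (w, p)) =
      (fun w => y (w, p) * tau K - ∑ i, ∑ j, ∑ v, (rho i j v w : K) • (y (v, p) * xi K i j)) -
        ∑ i, ∑ j, ∑ q, F i j q p • (fun w => y (w, q) * xi K i j) := by
  ext w
  simp only [vecMul_dl, Fp_apply, Fintype.sum_prod_type, add_smul, Finset.sum_add_distrib, ite_smul,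
    zero_smul, Finset.sum_ite_eq', Finset.mem_univ, if_true, Pi.sub_apply, Finset.sum_apply,
    Pi.smul_apply, Finset.sum_ite_irrel, Finset.sum_const_zero]
  abel

lemma FT_dl0 (F : Fin 2 → Fin 2 → Matrix ι ι K) (s : Fin 2) (y : Fin 2 × ι → C K) (v : Fin 2) :
    FT s 0 (y ᵥ* dl (Fp F)) v = FT s 0 y v ᵥ* dl F - FT s 1 (y ᵥ* sc' (cM F)) v := by
  ext p
  rw [Pi.sub_apply, vecMul_dl]
  simp only [FT]
  rw [vecMul_dl_Fp]
  simp only [map_sub, map_sum, map_smul, Ft_tau0 s (fun w => y (w, p)),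
    Pi.sub_apply, Finset.sum_apply, Pi.smul_apply]
  have e : ∀ i j q, Ft K s 0 (fun w => y (w, q) * xi K i j) v =
      Ft K s 0 (fun w => y (w, q)) v * xi K i j + Th K (y (j, q)) s 1 v i :=
    fun i j q => congrFun (Ft_xi0 s i j (fun w => y (w, q))) v
  simp only [e, smul_add, Finset.sum_add_distrib, Ft_apply s 1, vecMul_sc', cM_apply, map_sum, map_smul,
    Fintype.sum_prod_type, Matrix.sum_apply, Matrix.smul_apply]
  abel

lemma FT_dl1 (F : Fin 2 → Fin 2 → Matrix ι ι K) (s : Fin 2) (y : Fin 2 × ι → C K) (v : Fin 2) :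
    FT s 1 (y ᵥ* dl (Fp F)) v = -(FT s 1 y v ᵥ* dl F) := by
  ext p
  rw [Pi.neg_apply, vecMul_dl]
  simp only [FT]
  rw [vecMul_dl_Fp]
  simp only [map_sub, map_sum, map_smul, Ft_tau1 s (fun w => y (w, p)),
    Pi.sub_apply, Finset.sum_apply, Pi.smul_apply]
  have e : ∀ i j q, Ft K s 1 (fun w => y (w, q) * xi K i j) v =
      -(Ft K s 1 (fun w => y (w, q)) v * xi K i j) :=
    fun i j q => congrFun (Ft_xi1 s i j (fun w => y (w, q))) v
  simp only [e, smul_neg, Finset.sum_neg_distrib]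
  abel

omit [Fintype ι] [DecidableEq ι] in
lemma FT_01 (y : Fin 2 × ι → C K) (v : Fin 2) : FT 0 1 y v = 0 := by
  ext p; simp [FT, Ft_01]

omit [Fintype ι] [DecidableEq ι] in
lemma FT_zero (s t v : Fin 2) : FT s t (0 : Fin 2 × ι → C K) v = 0 := by
  ext p; simp [FT, Ft_apply]

omit [Fintype ι] [DecidableEq ι] in
lemma FT_inj (s : Fin 2) {y : Fin 2 × ι → C K} (h : ∀ v, FT s s y v = 0) : y = 0 := by
  ext ⟨w, p⟩
  have : (fun w => y (w, p)) = 0 := by
    apply Ft_inj s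
    rw [map_zero]
    ext v
    exact congrFun (h v) p
  exact congrFun this w

omit [Fintype ι] [DecidableEq ι] in
lemma FT_surj (s : Fin 2) (n : ℤ) (z : Fin 2 → ι → C K) (hz : ∀ v p, z v p ∈ Cg K n) :
    ∃ y : Fin 2 × ι → C K, (∀ x, y x ∈ Cg K n) ∧ ∀ v, FT s s y v = z v := by
  choose a ha ha' using fun p => Ft_surj_deg s n (fun v => z v p) (fun v => hz v p)
  exact ⟨fun x => a x.2 x.1, fun x => ha _ _, fun v => funext fun p => congrFun (ha' p) v⟩

/-- translation of a layered module element -/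
noncomputable def FF (t : Fin 2) (u : Col (R1 K) (Fin 2 × ι)) : Col (R2 K) ι :=
  Col.rows (R2 K) (Sum.elim (fun _ => 0) (fun x => FT x.2.1 t (u.m (lay x)) x.2.2))

omit [Fintype ι] [DecidableEq ι] in
lemma FF_inl (t : Fin 2) (u : Col (R1 K) (Fin 2 × ι)) (i : Fin 5) :
    (FF t u).m (Sum.inl i) = 0 := rfl

omit [Fintype ι] [DecidableEq ι] in
lemma FF_inr (t : Fin 2) (u : Col (R1 K) (Fin 2 × ι)) (x : L1) :
    (FF t u).m (Sum.inr x) = FT x.2.1 t (u.m (lay x)) x.2.2 := rfl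

omit [Fintype ι] [DecidableEq ι] in
lemma FF_add (t : Fin 2) (u u' : Col (R1 K) (Fin 2 × ι)) : FF t (u + u') = FF t u + FF t u' := by
  apply Col.ext
  ext (x | x) p
  · simp [Col.add_m, FF_inl]
  · simp [Col.add_m, FF_inr, FT, Ft_apply, Finset.sum_add_distrib]

omit [Fintype ι] [DecidableEq ι] in
lemma FF_smul (t : Fin 2) (a : Alg K) (u : Col (R1 K) (Fin 2 × ι))
    (hu : ∀ p v w, Th K (u.m 0 (w, p)) 1 t v w = 0) : FF t (a • u) = a • FF t u := by
  obtain ⟨b, hb, c, hc, rfl⟩ := exists_mkA a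
  apply Col.ext
  ext (x | x) p
  · simp [Col.smul_m, FF_inl, R2_mk, Matrix.mul_apply, Fintype.sum_sum_type]
  · simp only [Col.smul_m, FF_inl, FF_inr, R2_mk, R1_mk, Matrix.mul_apply, Fintype.sum_sum_type,
      FT, Ft_apply, Pi.zero_apply, mul_zero, Finset.sum_const_zero, zero_add, fromBlocks_apply₂₂,
      Finset.mul_sum]
    rw [Finset.sum_comm]
    refine Finset.sum_congr rfl fun w _ => ?_
    exact (core hb (fun i => u.m i (w, p)) t w (fun v => hu p v w) x).symm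

omit [Fintype ι] [DecidableEq ι] in
lemma FF_mem (t : Fin 2) {u : Col (R1 K) (Fin 2 × ι)} (hu : u ∈ Q (R1 K) (Fin 2 × ι) 0) :
    FF t u ∈ Q (R2 K) ι (1 - (t : ℕ)) := by
  rintro (x | x) p
  · exact zero_mem _
  · have := Ft_mem x.2.1 t (fun w => hu (lay x) (w, p)) x.2.2
    have e : (R1 K).d (lay x) - 0 + (t : ℕ) - (x.2.1 : ℕ) =
        (R2 K).d (Sum.inr x) - (1 - (t : ℕ)) := by
      simp only [R1_d, R2_dr, lay]; push_cast; ring
    rwa [e] at this

lemma FF_dl0 (F : Fin 2 → Fin 2 → Matrix ι ι K) (u : Col (R1 K) (Fin 2 × ι)) :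
    FF 0 (rm (R1 K) (dl (Fp F)) u) =
      rm (R2 K) (dl F) (FF 0 u) - FF 1 (rm (R1 K) (sc' (cM F)) u) := by
  apply Col.ext
  ext (x | x) p
  · simp [Col.sub_m, FF_inl, rm_m, Matrix.mul_apply]
  · exact congrFun (FT_dl0 F x.2.1 (u.m (lay x)) x.2.2) p

lemma FF_dl1 (F : Fin 2 → Fin 2 → Matrix ι ι K) (u : Col (R1 K) (Fin 2 × ι)) :
    rm (R2 K) (dl F) (FF 1 u) + FF 1 (rm (R1 K) (dl (Fp F)) u) = 0 := by
  apply Col.ext
  ext (x | x) p
  · simp [Col.add_m, FF_inl, rm_m, Matrix.mul_apply, Col.zero_m]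
  · have := congrFun (FT_dl1 F x.2.1 (u.m (lay x)) x.2.2) p
    exact add_eq_zero_iff_neg_eq.2 this.symm

omit [Fintype ι] [DecidableEq ι] in
lemma FF_zero (t : Fin 2) : FF t (0 : Col (R1 K) (Fin 2 × ι)) = 0 := by
  apply Col.ext
  ext (x | x) p
  · rfl
  · exact congrFun (FT_zero _ _ _) p

variable (K ι) in
/-- projection to the first representation -/
noncomputable def pC : Col (R2 K) ι →ₗ[Alg K] Col (R1 K) ι where
  toFun m := Col.rows (R1 K) (Fin.cases 0 (fun i => m.m (Sum.inl i)))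
  map_add' m n := by
    apply Col.ext
    ext j p
    refine Fin.cases ?_ (fun i => ?_) j
    · exact (add_zero _).symm
    · rfl
  map_smul' a m := by
    obtain ⟨b, hb, c, hc, rfl⟩ := exists_mkA a
    apply Col.ext
    ext j p
    refine Fin.cases ?_ (fun i => ?_) j
    · simp [Col.smul_m, Col.rows_m, R1_mk, Matrix.mul_apply, Fin.sum_univ_succ (n := 5), hb.row0]
    · simp [Col.smul_m, Col.rows_m, R1_mk, R2_mk, Matrix.mul_apply, Fin.sum_univ_succ (n := 5),
        Fintype.sum_sum_type, piB]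

omit [Fintype ι] [DecidableEq ι] in
lemma pC_zero (m : Col (R2 K) ι) : (pC K ι m).m 0 = 0 := rfl
omit [Fintype ι] [DecidableEq ι] in
lemma pC_succ (m : Col (R2 K) ι) (i : Fin 5) : (pC K ι m).m i.succ = m.m (Sum.inl i) := rfl

omit [Fintype ι] [DecidableEq ι] in
lemma pC_eq_zero {m : Col (R2 K) ι} : pC K ι m = 0 ↔ ∀ i, m.m (Sum.inl i) = 0 := by
  constructor
  · intro h i
    rw [← pC_succ, h]; rfl
  · intro h
    apply Col.ext
    ext1 j p
    refine Fin.cases rfl (fun i => ?_) j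
    rw [pC_succ, h i]; rfl

/-- the module Y -/
noncomputable abbrev YY (F : Fin 2 → Fin 2 → Matrix ι ι K) := Z (R1 K) F 0
/-- the module H -/
noncomputable abbrev HH (F : Fin 2 → Fin 2 → Matrix ι ι K) := Z (R2 K) F 0

lemma pC_mem {F : Fin 2 → Fin 2 → Matrix ι ι K} {m : Col (R2 K) ι} (hm : m ∈ HH F) :
    pC K ι m ∈ YY F := by
  rw [mem_Z] at hm ⊢
  constructor
  · intro j p
    refine Fin.cases (zero_mem _) (fun i => ?_) j
    have := hm.1 (Sum.inl i) p
    rw [pC_succ]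
    simpa [R1_d, R2_dl] using this
  · intro j
    refine Fin.cases ?_ (fun i => hm.2 (Sum.inl i)) j
    rw [pC_zero, zero_vecMul]

/-- the map H to Y -/
noncomputable def pH (F : Fin 2 → Fin 2 → Matrix ι ι K) : HH F →ₗ[Alg K] YY F :=
  ((pC K ι).comp (HH F).subtype).codRestrict _ (fun m => pC_mem m.2)

lemma pH_surj (F : Fin 2 → Fin 2 → Matrix ι ι K) : Function.Surjective (pH F) := by
  intro y
  have hy := mem_Z.1 y.2
  refine ⟨⟨Col.rows (R2 K) (Sum.elim (fun i => y.1.m i.succ) (fun _ => 0)), mem_Z.2 ⟨?_, ?_⟩⟩, ?_⟩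
  · rintro (i | x) p
    · have := hy.1 i.succ p
      simpa [R1_d, R2_dl, Col.rows_m] using this
    · exact zero_mem _
  · rintro (i | x)
    · exact hy.2 i.succ
    · exact zero_vecMul _
  · apply Subtype.ext; apply Col.ext
    ext1 j p
    refine Fin.cases ?_ (fun i => rfl) j
    exact (congrFun (Z_zero y.2 (x := 0) (by simp [R1_d])) p).symm

/-- the module X -/
noncomputable abbrev XX (F : Fin 2 → Fin 2 → Matrix ι ι K) := LinearMap.ker (pH F)

lemma mem_XX {F : Fin 2 → Fin 2 → Matrix ι ι K} {m : HH F} :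
    m ∈ XX F ↔ ∀ i, m.1.m (Sum.inl i) = 0 := by
  rw [← pC_eq_zero, LinearMap.mem_ker, Subtype.ext_iff]; rfl

lemma XX_ext {F : Fin 2 → Fin 2 → Matrix ι ι K} {m n : XX F}
    (h : ∀ x, m.1.1.m (Sum.inr x) = n.1.1.m (Sum.inr x)) : m = n := by
  apply Subtype.ext; apply Subtype.ext; apply Col.ext
  ext (i | x) p
  · rw [mem_XX.1 m.2, mem_XX.1 n.2]
  · rw [h x]

/-- the map f -/
noncomputable def fX {F : Fin 2 → Fin 2 → Matrix ι ι K} (hF : GLrel F) :
    Q (R1 K) (Fin 2 × ι) 0 →ₗ[Alg K] XX F where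
  toFun u := ⟨⟨rm (R2 K) (dl F) (FF 0 u.1), rm_dl_mem hF (by simp) (FF_mem 0 u.2)⟩,
    mem_XX.2 fun i => by
      ext p
      simp [rm_m, Matrix.mul_apply, FF_inl]⟩
  map_add' u u' := by
    apply Subtype.ext; apply Subtype.ext
    simp [FF_add]
  map_smul' a u := by
    apply Subtype.ext; apply Subtype.ext
    have := FF_smul 0 a u.1 (fun p v w =>
      Cg_neg (by simp [R1_d]) (Th_deg _ (u.2 0 (w, p)) 1 0 v w))
    simp [this]

lemma fX_val {F : Fin 2 → Fin 2 → Matrix ι ι K} (hF : GLrel F) (u : Q (R1 K) (Fin 2 × ι) 0) :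
    (fX hF u).1.1 = rm (R2 K) (dl F) (FF 0 u.1) := rfl

/-- the map J -/
noncomputable def JX (F : Fin 2 → Fin 2 → Matrix ι ι K) : YY (Fp F) →ₗ[Alg K] XX F where
  toFun y := ⟨⟨FF 1 y.1, by simpa using FF_mem 1 y.2.1, by
      have := FF_dl1 F y.1
      rw [show rm (R1 K) (dl (Fp F)) y.1 = 0 from y.2.2, FF_zero, add_zero] at this
      exact this⟩, mem_XX.2 fun i => rfl⟩
  map_add' u u' := by
    apply Subtype.ext; apply Subtype.ext
    simp [FF_add]
  map_smul' a u := by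
    apply Subtype.ext; apply Subtype.ext
    have := FF_smul 1 a u.1 (fun p v w => by
      rw [Z_zero u.2 (x := 0) (by simp [R1_d])]; simp)
    simp [this]

lemma JX_val (F : Fin 2 → Fin 2 → Matrix ι ι K) (y : YY (Fp F)) : (JX F y).1.1 = FF 1 y.1 := rfl

lemma JX_inj (F : Fin 2 → Fin 2 → Matrix ι ι K) : Function.Injective (JX F) := by
  rw [injective_iff_map_eq_zero]
  intro y hy
  apply Subtype.ext; apply Col.ext
  ext1 j p
  refine Fin.cases (congrFun (Z_zero y.2 (x := 0) (by simp [R1_d])) p) (fun i => ?_) j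
  refine congrFun (FT_inj 1 fun v => ?_) p
  have := congrArg (fun m : XX F => m.1.1.m (Sum.inr (i, 1, v))) hy
  exact this

/-- scalar matrices act on cycles -/
noncomputable def rz {F : Fin 2 → Fin 2 → Matrix ι ι K} {G : Fin 2 → Fin 2 → Matrix κ κ K}
    (T : Matrix ι κ K) (h : ∀ i j, F i j * T = T * G i j) : YY F →ₗ[Alg K] YY G :=
  ((rm (R1 K) (sc' T)).comp (YY F).subtype).codRestrict _ (fun y => by
    refine ⟨fun x p => vecMul_sc'_mem T (y.2.1 x) p, ?_⟩
    apply Col.ext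
    change y.1.m * sc' T * dl G = 0
    have : y.1.m * dl F = 0 := congrArg Col.m y.2.2
    rw [Matrix.mul_assoc, ← dl_comm h, ← Matrix.mul_assoc, this, Matrix.zero_mul])

lemma rz_m {F : Fin 2 → Fin 2 → Matrix ι ι K} {G : Fin 2 → Fin 2 → Matrix κ κ K}
    (T : Matrix ι κ K) (h : ∀ i j, F i j * T = T * G i j) (y : YY F) :
    (rz T h y).1.m = y.1.m * sc' T := rfl

/-- data of one step -/
structure StepData (F : Fin 2 → Fin 2 → Matrix ι ι K) (G : Fin 2 → Fin 2 → Matrix κ κ K) where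
  /-- projection -/
  β : Matrix (Fin 2 × ι) κ K
  /-- inclusion -/
  α : Matrix κ (Fin 2 × ι) K
  /-- scalar -/
  n : K
  hn : n ≠ 0
  hF : GLrel F
  hβ : ∀ i j, Fp F i j * β = β * G i j
  hα : ∀ i j, G i j * α = α * Fp F i j
  hαβ : α * β = n • 1
  hβα : β * α + cM F = n • 1

namespace StepData

variable {F : Fin 2 → Fin 2 → Matrix ι ι K} {G : Fin 2 → Fin 2 → Matrix κ κ K} (S : StepData F G)

lemma c_eq : cM F = S.n • 1 - S.β * S.α := by rw [← S.hβα]; simp

include S in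
lemma hc (i j : Fin 2) : Fp F i j * cM F = cM F * Fp F i j := by
  rw [S.c_eq, Matrix.mul_sub, Matrix.sub_mul, ← Matrix.mul_assoc, S.hβ, Matrix.mul_assoc, S.hα,
    Matrix.mul_assoc]
  simp

lemma αc : S.α * cM F = 0 := by
  rw [S.c_eq, Matrix.mul_sub, ← Matrix.mul_assoc, S.hαβ]; simp

lemma cβ : cM F * S.β = 0 := by
  rw [S.c_eq, Matrix.sub_mul, Matrix.mul_assoc, S.hαβ]; simp

omit [Fintype κ] in
lemma sc'_smul_one (r : K) : sc' (r • (1 : Matrix κ κ K)) = r • (1 : Matrix κ κ (C K)) := by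
  ext i j
  by_cases h : i = j <;> simp [sc', Matrix.one_apply, h, Algebra.algebraMap_eq_smul_one]

lemma f_eq_J (y : YY (Fp F)) : fX S.hF ⟨y.1, y.2.1⟩ = JX F (rz (cM F) S.hc y) := by
  apply Subtype.ext; apply Subtype.ext
  have := FF_dl0 F y.1
  rw [show rm (R1 K) (dl (Fp F)) y.1 = 0 from y.2.2, FF_zero] at this
  exact (sub_eq_zero.1 this.symm)

lemma mem_Y_of (u : Q (R1 K) (Fin 2 × ι) 0)
    (h : ∀ j v, (fX S.hF u).1.1.m (Sum.inr (j, 0, v)) = 0) : u.1 ∈ YY (Fp F) := by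
  refine mem_Z.2 ⟨u.2, fun x => ?_⟩
  refine Fin.lastCases ?_ (fun j => ?_) x
  · ext p
    exact Cg_six (by simpa [R1_d] using vecMul_dl_mem (Fp F) (u.2 (Fin.last 5)) p)
  · refine FT_inj 0 fun v => ?_
    rw [FT_dl0, FT_01, sub_zero]
    exact h j v

lemma decomp (y : YY (Fp F)) : y = (algebraMap K (Alg K) S.n⁻¹) •
    (rz S.α S.hα (rz S.β S.hβ y) + rz (cM F) S.hc y) := by
  rw [algebraMap_smul]
  apply Subtype.ext; apply Col.ext
  change y.1.m = S.n⁻¹ • (y.1.m * sc' S.β * sc' S.α + y.1.m * sc' (cM F))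
  have : sc' S.β * sc' S.α + sc' (cM F) = S.n • 1 := by
    rw [← sc'_mul, ← sc'_smul_one, ← S.hβα]
    ext; simp only [sc', Matrix.add_apply, map_apply, map_add]
  rw [Matrix.mul_assoc, ← Matrix.mul_add, this, Matrix.mul_smul, Matrix.mul_one, smul_smul,
    inv_mul_cancel₀ S.hn, one_smul]

lemma rz_αβ (y : YY G) (h : rz S.β S.hβ (rz S.α S.hα y) = 0) : y = 0 := by
  apply Subtype.ext; apply Col.ext
  have h1 : y.1.m * sc' S.α * sc' S.β = 0 := congrArg (fun m : YY G => m.1.m) h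
  rw [Matrix.mul_assoc, ← sc'_mul, S.hαβ, sc'_smul_one, Matrix.mul_smul, Matrix.mul_one] at h1
  exact (smul_eq_zero.1 h1).resolve_left S.hn

lemma rz_αc (y : YY G) : rz (cM F) S.hc (rz S.α S.hα y) = 0 := by
  apply Subtype.ext; apply Col.ext
  change y.1.m * sc' S.α * sc' (cM F) = 0
  rw [Matrix.mul_assoc, ← sc'_mul, S.αc]; simp [sc']

lemma rz_cβ (y : YY (Fp F)) : rz S.β S.hβ (rz (cM F) S.hc y) = 0 := by
  apply Subtype.ext; apply Col.ext
  change y.1.m * sc' (cM F) * sc' S.β = 0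
  rw [Matrix.mul_assoc, ← sc'_mul, S.cβ]; simp [sc']

/-- kernel of f -/
noncomputable def chi : YY G →ₗ[Alg K] Q (R1 K) (Fin 2 × ι) 0 :=
  (Submodule.inclusion (inf_le_left : YY (Fp F) ≤ Q (R1 K) (Fin 2 × ι) 0)).comp (rz S.α S.hα)

lemma chi_inj : Function.Injective S.chi := by
  rw [injective_iff_map_eq_zero]
  intro y hy
  apply S.rz_αβ
  have h0 := congrArg Subtype.val hy
  have : rz S.α S.hα y = 0 := Subtype.ext h0
  rw [this, map_zero]

lemma chi_exact : Function.Exact S.chi (fX S.hF).rangeRestrict := by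
  intro u
  rw [Subtype.ext_iff]
  change fX S.hF u = 0 ↔ _
  constructor
  · intro h
    have hu := S.mem_Y_of u (fun j v => by rw [h]; rfl)
    have h1 := S.f_eq_J ⟨u.1, hu⟩
    have h2 : rz (cM F) S.hc ⟨u.1, hu⟩ = 0 := JX_inj F (by rw [← h1, map_zero]; exact h)
    have h3 := S.decomp ⟨u.1, hu⟩
    rw [h2, add_zero, ← map_smul] at h3
    have h4 := congrArg Subtype.val h3
    exact ⟨_, Subtype.ext h4.symm⟩
  · rintro ⟨y, rfl⟩
    have := S.f_eq_J (rz S.α S.hα y)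
    rw [S.rz_αc, map_zero] at this
    exact this

/-- cokernel of f -/
noncomputable def psi : YY G →ₗ[Alg K] (XX F ⧸ LinearMap.range (fX S.hF)) :=
  (LinearMap.range (fX S.hF)).mkQ.comp ((JX F).comp (rz S.α S.hα))

lemma psi_inj : Function.Injective S.psi := by
  rw [injective_iff_map_eq_zero]
  intro y hy
  obtain ⟨u, hu⟩ := (Submodule.Quotient.mk_eq_zero _).1 hy
  change _ = JX F (rz S.α S.hα y) at hu
  have hu' := S.mem_Y_of u (fun j v => by rw [hu, JX_val, FF_inr]; exact FT_01 _ _)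
  have h1 := S.f_eq_J ⟨u.1, hu'⟩
  have h2 : rz (cM F) S.hc ⟨u.1, hu'⟩ = rz S.α S.hα y := JX_inj F (by rw [← h1, ← hu])
  apply S.rz_αβ
  rw [← h2, S.rz_cβ]

lemma psi_surj : Function.Surjective S.psi := by
  intro w
  obtain ⟨w, rfl⟩ := Submodule.Quotient.mk_surjective _ w
  have hw := mem_Z.1 w.1.2
  choose z hz hz' using fun (j : Fin 5) (v : Fin 2) =>
    exact_row F (hw.1 (Sum.inr (j, 0, v))) (hw.2 (Sum.inr (j, 0, v)))
  choose a ha ha' using fun j : Fin 5 => FT_surj 0 ((j : ℕ) : ℤ) (z j) (fun v p => by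
    simpa [R2_dr] using hz j v p)
  let u : Q (R1 K) (Fin 2 × ι) 0 := ⟨Col.rows (R1 K) (Fin.lastCases 0 a), fun x p => by
    refine Fin.lastCases ?_ (fun j => ?_) x
    · rw [Col.rows_m, Fin.lastCases_last]; exact zero_mem _
    · simpa [Col.rows_m, R1_d] using ha j p⟩
  let w' := w - fX S.hF u
  have h0 : ∀ j v, w'.1.1.m (Sum.inr (j, 0, v)) = 0 := by
    intro j v
    change w.1.1.m (Sum.inr (j, 0, v)) - FT 0 0 (u.1.m j.castSucc) v ᵥ* dl F = 0
    have : u.1.m j.castSucc = a j := by simp [u, Col.rows_m]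
    rw [this, ha', hz', sub_self]
  have hw' := mem_Z.1 w'.1.2
  choose b hb hb' using fun j : Fin 5 => FT_surj 1 (((j : ℕ) : ℤ) + 1)
    (fun v => w'.1.1.m (Sum.inr (j, 1, v))) (fun v p => by
      simpa [R2_dr] using hw'.1 (Sum.inr (j, 1, v)) p)
  let y : YY (Fp F) := ⟨Col.rows (R1 K) (Fin.cases 0 b), mem_Z.2 ⟨fun x p => by
    refine Fin.cases (zero_mem _) (fun j => ?_) x
    simpa [Col.rows_m, R1_d] using hb j p, fun x => by
    refine Fin.cases (zero_vecMul _) (fun j => ?_) x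
    refine FT_inj 1 fun v => ?_
    change FT 1 1 (b j ᵥ* dl (Fp F)) v = 0
    rw [FT_dl1, hb', hw'.2, neg_zero]⟩⟩
  have hy : JX F y = w' := by
    apply XX_ext
    rintro ⟨j, s, v⟩
    rw [JX_val, FF_inr]
    fin_cases s
    · exact (FT_01 _ _).trans (h0 j v).symm
    · exact hb' j v
  refine ⟨(algebraMap K (Alg K) S.n⁻¹) • rz S.β S.hβ y, ?_⟩
  refine (Submodule.Quotient.eq _).2 ?_
  have h1 : w = fX S.hF u + JX F y := by rw [hy]; simp [w']
  rw [h1]
  nth_rewrite 2 [S.decomp y]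
  simp only [LinearMap.comp_apply, map_smul, map_add, smul_add, ← S.f_eq_J]
  refine ⟨-(u + (algebraMap K (Alg K) S.n⁻¹) • ⟨y.1, y.2.1⟩), ?_⟩
  simp only [map_neg, map_add, map_smul]
  abel

/-- the surjection X to the previous Y -/
noncomputable def gX : XX F →ₗ[Alg K] YY G :=
  (LinearEquiv.ofBijective S.psi ⟨S.psi_inj, S.psi_surj⟩).symm.toLinearMap.comp
    (LinearMap.range (fX S.hF)).mkQ

lemma gX_surj : Function.Surjective S.gX :=
  (LinearEquiv.ofBijective S.psi ⟨S.psi_inj, S.psi_surj⟩).symm.surjective.comp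
    (Submodule.mkQ_surjective _)

include S in
lemma FP_Y (h : FP (Alg K) (YY G)) : FP (Alg K) (YY F) := by
  have hq := Q1_proj (K := K) (ι := Fin 2 × ι)
  have h1 : FP (Alg K) (LinearMap.range (fX S.hF)) :=
    FP.right S.chi _ S.chi_exact S.chi_inj (fX S.hF).surjective_rangeRestrict h
      (FP.of_projective _)
  have h2 : FP (Alg K) (XX F) :=
    FP.mid (LinearMap.range (fX S.hF)).subtype (LinearMap.range (fX S.hF)).mkQ
      (LinearMap.exact_subtype_mkQ _) (Submodule.injective_subtype _) (Submodule.mkQ_surjective _)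
      h1 (h.of_equiv (LinearEquiv.ofBijective S.psi ⟨S.psi_inj, S.psi_surj⟩))
  exact FP.right (XX F).subtype (pH F) (LinearMap.exact_subtype_ker_map _)
    (Submodule.injective_subtype _) (pH_surj F) h2 (FP_H S.hF)

end StepData

variable (K) in
/-- the square zero ideal -/
def II : Set (Alg K) := {a | (R1 K).ρ a = 0}

lemma II_left (r a : Alg K) (ha : a ∈ II K) : r * a ∈ II K := by
  change (R1 K).ρ (r * a) = 0
  rw [map_mul, show (R1 K).ρ a = 0 from ha, mul_zero]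

lemma II_right (r a : Alg K) (ha : a ∈ II K) : a * r ∈ II K := by
  change (R1 K).ρ (a * r) = 0
  rw [map_mul, show (R1 K).ρ a = 0 from ha, zero_mul]

lemma thB_zero : thB (0 : Matrix (Fin 6) (Fin 6) (C K)) = 0 := by ext; simp [thB]

lemma II_sq (a : Alg K) (ha : a ∈ II K) (b : Alg K) (hb : b ∈ II K) : a * b = 0 := by
  obtain ⟨c, hc, u, hu, rfl⟩ := exists_mkA a
  obtain ⟨c', hc', u', hu', rfl⟩ := exists_mkA b
  obtain rfl : c = 0 := ha
  obtain rfl : c' = 0 := hb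
  apply mkA_mul_eq_zero
  · simp
  · have : piB (0 : Matrix (Fin 6) (Fin 6) (C K)) = 0 := rfl
    simp [this, thB_zero]

lemma II_Y (F : Fin 2 → Fin 2 → Matrix ι ι K) (a : Alg K) (ha : a ∈ II K) (y : YY F) :
    a • y = 0 := by
  apply Subtype.ext; apply Col.ext
  change (R1 K).ρ a * y.1.m = 0
  rw [show (R1 K).ρ a = 0 from ha, Matrix.zero_mul]

lemma II_X (F : Fin 2 → Fin 2 → Matrix ι ι K) (a : Alg K) (ha : a ∈ II K) (x : XX F) :
    a • x = 0 := by
  obtain ⟨c, hc, u, hu, rfl⟩ := exists_mkA a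
  obtain rfl : c = 0 := ha
  apply XX_ext
  intro z
  ext p
  change ((R2 K).ρ (mkA 0 hc u hu) * x.1.1.m) (Sum.inr z) p = 0
  simp [R2_mk, Matrix.mul_apply, Fintype.sum_sum_type, mem_XX.1 x.2, thB_zero]

lemma II_H {F : Fin 2 → Fin 2 → Matrix ι ι K} (hF : GLrel F) (x : XX F) :
    (XX F).subtype x ∈
      Submodule.span (Alg K) {z : HH F | ∃ a ∈ II K, ∃ h : HH F, z = a • h} := by
  have hx := mem_Z.1 x.1.2
  choose z hz hz' using fun y : L1 => exact_row F (hx.1 (Sum.inr y)) (hx.2 (Sum.inr y))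
  let a : ι → Alg K := fun p => mkA 0 Gr_zero (colM 0 (fun y => z y p)) (GrU_colM _ _ (fun y => by
    simpa [R2_dr] using hz y p))
  let D : Q (R2 K) ι ((R2 K).d (Sum.inl 0)) →ₗ[Alg K] HH F :=
    ((rm (R2 K) (dl F)).comp (Submodule.subtype _)).codRestrict _
      (fun m => rm_dl_mem hF (by simp [R2_dl]) m.2)
  have h1 : (XX F).subtype x = D (Tc (R2 K) ι (Sum.inl 0) a) := by
    apply Subtype.ext; apply Col.ext
    ext (i | y) p
    · rw [show ((XX F).subtype x).1.m (Sum.inl i) = 0 from mem_XX.1 x.2 i]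
      change 0 = ∑ q, (R2 K).ρ (a q) (Sum.inl i) (Sum.inl 0) * dl F q p
      simp [a, R2_mk, piB]
    · change x.1.1.m (Sum.inr y) p = ∑ q, (R2 K).ρ (a q) (Sum.inr y) (Sum.inl 0) * dl F q p
      rw [← hz' y]
      simp [a, R2_mk, colM, vecMul, dotProduct]
  have h2 : a = ∑ p, a p • (Pi.single p 1 : ι → Alg K) := by
    ext q; simp [Pi.single_apply]
  rw [h1, h2, map_sum, map_sum]
  refine Submodule.sum_mem _ fun p _ => Submodule.subset_span
    ⟨a p, rfl, D (Tc (R2 K) ι (Sum.inl 0) (Pi.single p 1)), ?_⟩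
  rw [map_smul, map_smul]

lemma Y_nontrivial {F : Fin 2 → Fin 2 → Matrix ι ι K} (hF : GLrel F) (p : ι) :
    Nontrivial (YY F) := by
  let m : Col (R1 K) ι := Col.rows _ (fun j q => if j = 1 ∧ q = p then 1 else 0)
  have hm : m ∈ Q (R1 K) ι 1 := by
    intro j q
    change (if j = 1 ∧ q = p then 1 else 0) ∈ _
    split_ifs with h
    · simpa [h.1, R1_d] using one_mem_Cg
    · exact zero_mem _
  refine ⟨⟨_, rm_dl_mem hF (by simp) hm⟩, 0, fun h => ?_⟩
  have h1 : m ∈ Z (R1 K) F 1 := ⟨hm, congrArg Subtype.val h⟩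
  have h2 := congrFun (Z_zero h1 (x := 1) (by simp [R1_d])) p
  simp [m, Col.rows_m] at h2

end Vale.Agent.P176
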